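import Vale.Agent.P032.S5.H450.Branch

/-!
# P032: sign lemma for curves, half branches, antipodal arcs

`Mx.sign` : a colour `x` on two curves from `z`, one inside and one outside the unit circle about `y`,
is not a colour of `y`.  `half_branch` : exact arcs at `u` on one side give such a curve.
`gap_arcs` : antipodal exact arcs leave at least two colours.
-/

open Set Filter Topology Metric

noncomputable section

namespace Vale.Agent.P032.S5.H450

open Vale.Agent.P032.Six

/-- **Sign lemma.** -/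
theorem Mx.sign {k : ℕ} {U : Fin k → Set ℂ} (h : Mx U) {z y : ℂ} {x : Fin k}
    (hy : x ∈ Pal U y) {c1 c2 : ℝ → ℂ} {t1 t2 : ℝ} (ht1 : 0 < t1) (ht2 : 0 < t2)
    (h1 : Continuous c1) (h2 : Continuous c2) (h10 : c1 0 = z) (h20 : c2 0 = z)
    (h1x : ∀ t ∈ Ioo 0 t1, x ∈ Pal U (c1 t)) (h2x : ∀ t ∈ Ioo 0 t2, x ∈ Pal U (c2 t))
    (hin : dist y (c1 t1) < 1) (hout : 1 < dist y (c2 t2)) : False := by
  have e1 : ∀ᶠ g in 𝓝 y, dist g (c1 t1) < 1 :=
    (continuous_id.dist continuous_const).continuousAt.eventually (Iio_mem_nhds hin)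
  have e2 : ∀ᶠ g in 𝓝 y, 1 < dist g (c2 t2) :=
    (continuous_id.dist continuous_const).continuousAt.eventually (Ioi_mem_nhds hout)
  obtain ⟨g, ⟨hgU, hg1, hg2⟩, hgz⟩ := exists_off (h.isOpen x) hy (z := z) (e1.and e2)
  have key : ∀ {c : ℝ → ℂ} {s : ℝ}, 0 < s → Continuous c → c 0 = z →
      (∀ t ∈ Ioo 0 s, x ∈ Pal U (c t)) → dist g (c s) ≠ 1 →
      (1 : ℝ) ∈ uIcc (dist g (c 0)) (dist g (c s)) → False := by
    intro c s hs hc h0 hx hne hmem
    have hcont : ContinuousOn (fun t => dist g (c t)) (uIcc 0 s) :=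
      (continuous_const.dist hc).continuousOn
    obtain ⟨t, ht, ht1⟩ := intermediate_value_uIcc hcont hmem
    rw [uIcc_of_le hs.le] at ht
    have ht1 : dist g (c t) = 1 := ht1
    have hn0 : t ≠ 0 := fun h5 => hgz (by rw [h5, h0] at ht1; exact ht1)
    have hns : t ≠ s := fun h5 => hne (by rw [h5] at ht1; exact ht1)
    exact h.notMem' hgU ht1 (hx t ⟨lt_of_le_of_ne ht.1 (Ne.symm hn0), lt_of_le_of_ne ht.2 hns⟩)
  rcases lt_or_gt_of_ne hgz with h5 | h5
  · refine key ht2 h2 h20 h2x hg2.ne' ?_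
    rw [h20, uIcc_of_le (h5.le.trans hg2.le)]
    exact ⟨h5.le, hg2.le⟩
  · refine key ht1 h1 h10 h1x hg1.ne ?_
    rw [h10, uIcc_of_ge (hg1.le.trans h5.le)]
    exact ⟨hg1.le, h5.le⟩

variable {U : Fin 6 → Set ℂ} {T : ℂ → Set (Fin 6)} {z u : ℂ} {o : ℝ} {x : Fin 6}

/-- the colour `x` is carried by a half branch at `z` of the unit circle about `2 z - u` -/
def HB (T : ℂ → Set (Fin 6)) (z u : ℂ) (o : ℝ) (x : Fin 6) : Prop :=
  ∃ η, 0 < η ∧ ∀ t ∈ Ioo 0 η, x ∈ T (z + (u - z) * (cis (o * t) - 1))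

theorem continuous_hb (z u : ℂ) (o : ℝ) :
    Continuous fun t : ℝ => z + (u - z) * (cis (o * t) - 1) :=
  continuous_const.add (continuous_const.mul
    ((continuous_cis.comp (by fun_prop)).sub continuous_const))

theorem hb_zero (z u : ℂ) (o : ℝ) : z + (u - z) * (cis (o * 0) - 1) = z := by simp [cis]

/-- **Half branch.** -/
theorem half_branch (h : Irr U T) (hu : dist u z = 1) (ho : o = 1 ∨ o = -1) {P : Set (Fin 6)}
    {η : ℝ} (hη : 0 < η) (hP : ∀ t ∈ Ioo 0 η, P ⊆ T (z + (u - z) * cis (o * t)))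
    (h3 : (T (2 * z - u)).ncard ≤ 3) (hT : T z ⊆ insert x (T (2 * z - u) ∪ P)) :
    HB T z u o x := by
  have hnear : ∀ᶠ t in 𝓝 (0 : ℝ), T (z + (u - z) * (cis (o * t) - 1)) ⊆ T z := by
    have h1 := (continuous_hb z u o).tendsto 0
    rw [hb_zero] at h1
    exact h1.eventually (h.nhd z)
  obtain ⟨ε, hε, hball⟩ := Metric.eventually_nhds_iff.1 hnear
  refine ⟨min ε (min η 1), lt_min hε (lt_min hη one_pos), fun t ht => ?_⟩
  have a1 : t < ε := ht.2.trans_le (min_le_left _ _)
  have a2 : t < η := ht.2.trans_le ((min_le_right _ _).trans (min_le_left _ _))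
  have a3 : t < 1 := ht.2.trans_le ((min_le_right _ _).trans (min_le_right _ _))
  have hsub := hball (y := t) (by rw [Real.dist_eq, sub_zero, abs_of_pos ht.1]; exact a1)
  set g := z + (u - z) * cis (o * t) with hg
  set w := z + (u - z) * (cis (o * t) - 1) with hw
  have hgz : dist g z = 1 := dist_rot hu _
  have hwy : dist w (2 * z - u) = 1 := by
    rw [dist_eq_norm, show w - (2 * z - u) = g - z by rw [hw, hg]; ring, ← dist_eq_norm]
    exact hgz
  have hwg : dist g w = 1 := by
    rw [dist_eq_norm, show g - w = u - z by rw [hw, hg]; ring, ← dist_eq_norm]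
    exact hu
  have hne : u - z ≠ 0 := by
    intro h6
    rw [dist_eq_norm, h6, norm_zero] at hu
    exact zero_ne_one hu
  have ho' : -o = 1 ∨ -o = -1 := by
    rcases ho with rfl | rfl
    · exact Or.inr rfl
    · exact Or.inl (by norm_num)
  obtain ⟨n1, n2⟩ := cis_ne ho' ht.1 a3
  rw [show -(-o * t) = o * t by ring] at n1 n2
  -- the colours of `P` are absent at `w`
  have hno : ∀ i ∈ P, i ∉ T w := by
    intro i hi hcon
    have hst : ∀ᶠ q in 𝓝[sphere z 1] g, i ∈ Pal U q := by
      have h1 : ∀ᶠ q in 𝓝[sphere z 1] (z + (u - z) * cis (o * t)), i ∈ T q := by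
        rw [eventually_circle (dist_rot hu _)]
        have h2 : ∀ᶠ s in 𝓝 (0 : ℝ), t + o * s ∈ Ioo 0 η := by
          have hc : Continuous fun s : ℝ => t + o * s := by fun_prop
          refine hc.continuousAt.eventually (isOpen_Ioo.mem_nhds ?_)
          show t + o * 0 ∈ Ioo 0 η
          rw [mul_zero, add_zero]; exact ⟨ht.1, a2⟩
        filter_upwards [h2] with s hs
        have e : z + (z + (u - z) * cis (o * t) - z) * cis s =
            z + (u - z) * cis (o * (t + o * s)) := by
          have e2 : o * (t + o * s) = o * t + s := by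
            rcases ho with rfl | rfl <;> ring
          rw [e2, H767.cis_add]; ring
        rw [e]
        exact hP _ hs hi
      exact h1.mono fun q hq => h.sub q hq
    rcases h.mx.partner_line hgz hst hwg (h.sub _ hcon) with h3 | h3
    · apply n1
      have : (u - z) * (cis (o * t) - 1) = (u - z) * 0 := by
        rw [hw] at h3; linear_combination h3
      have := mul_left_cancel₀ hne this
      linear_combination this
    · apply n2
      have : (u - z) * (cis (o * t) + 1) = (u - z) * 0 := by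
        rw [hw, hg] at h3; linear_combination -h3
      have := mul_left_cancel₀ hne this
      linear_combination this
  by_contra hx
  refine h.not_sub hwy h3 fun i hi => ?_
  rcases hT (hsub hi) with rfl | h5 | h5
  · exact absurd hi hx
  · exact h5
  · exact absurd hi (hno i h5)

theorem hb_in {y : ℂ} (hy : dist z y = 1)
    (hs : 0 < o * cr (u - z) (y - z)) :
    ∀ᶠ t : ℝ in 𝓝[>] 0, dist y (z + (u - z) * (cis (o * t) - 1)) < 1 := by
  have h1 := arc_in (C := 2 * z - u) (P := z) (g := y) hy (τ := o) (by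
    have : o * cr (z - (2 * z - u)) (z - y) = -(o * cr (u - z) (y - z)) := by
      unfold cr; simp; ring
    rw [this]; linarith)
  filter_upwards [h1] with t ht
  rw [dist_comm]
  rwa [show z + (u - z) * (cis (o * t) - 1) = 2 * z - u + (z - (2 * z - u)) * cis (o * t) by ring]

theorem hb_out {y : ℂ} (hy : dist z y = 1)
    (hs : o * cr (u - z) (y - z) < 0) :
    ∀ᶠ t : ℝ in 𝓝[>] 0, 1 < dist y (z + (u - z) * (cis (o * t) - 1)) := by
  have h1 := arc_out (C := 2 * z - u) (P := z) (g := y) hy (τ := o) (by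
    have : o * cr (z - (2 * z - u)) (z - y) = -(o * cr (u - z) (y - z)) := by
      unfold cr; simp; ring
    rw [this]; linarith)
  filter_upwards [h1] with t ht
  rw [dist_comm]
  rwa [show z + (u - z) * (cis (o * t) - 1) = 2 * z - u + (z - (2 * z - u)) * cis (o * t) by ring]

/-- **Two half branches on different sides.** -/
theorem two_branches (h : Irr U T) {u1 u2 y : ℂ} {o1 o2 : ℝ} (b1 : HB T z u1 o1 x) (b2 : HB T z u2 o2 x) (hy : dist z y = 1)
    (hx : x ∈ Pal U y) (s1 : 0 < o1 * cr (u1 - z) (y - z))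
    (s2 : o2 * cr (u2 - z) (y - z) < 0) : False := by
  obtain ⟨η1, hη1, H1⟩ := b1
  obtain ⟨η2, hη2, H2⟩ := b2
  obtain ⟨t1, ht1, ht1'⟩ := ((hb_in hy s1).and (Ioo_mem_nhdsGT hη1)).exists
  obtain ⟨t2, ht2, ht2'⟩ := ((hb_out hy s2).and (Ioo_mem_nhdsGT hη2)).exists
  refine Mx.sign h.mx (z := z) hx ht1'.1 ht2'.1 (continuous_hb z u1 o1) (continuous_hb z u2 o2)
    (hb_zero _ _ _) (hb_zero _ _ _) (fun t ht => h.sub _ (H1 t ⟨ht.1, ht.2.trans ht1'.2⟩))
    (fun t ht => h.sub _ (H2 t ⟨ht.1, ht.2.trans ht2'.2⟩)) ht1 ht2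

/-- **Antipodal arcs.** -/
theorem gap_arcs (h : Irr U T) {P : Set (Fin 6)} (hzX : z ∈ XX U) (hu : dist u z = 1) {η : ℝ}
    (hη : 0 < η) (hP : ∀ t ∈ Ioo (-η) η, P ⊆ T (z + (u - z) * cis t))
    (h3 : ∀ t ∈ Ioo (-η) η, (T (2 * z - (z + (u - z) * cis t))).ncard ≤ 3)
    (hT : ∀ t ∈ Ioo (-η) η, T z ⊆ insert x (T (2 * z - (z + (u - z) * cis t)) ∪ P)) :
    False := by
  obtain ⟨y, hy, hxy⟩ := h.partner_XX hzX x
  have hne : u - z ≠ 0 := by
    intro h6
    rw [dist_eq_norm, h6, norm_zero] at hu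
    exact zero_ne_one hu
  -- an angle with a transversal position
  obtain ⟨t, ht, hcr⟩ : ∃ t ∈ Ioo (-η) η, cr ((u - z) * cis t) (y - z) ≠ 0 := by
    by_contra hcon
    push Not at hcon
    have h0 := hcon 0 ⟨by linarith, hη⟩
    set s := min (η / 2) 1 with hs
    have hs0 : 0 < s := lt_min (by linarith) one_pos
    have hs1 : s ≤ η / 2 := min_le_left _ _
    have hs2 : s ≤ 1 := min_le_right _ _
    have h1 := hcon s ⟨by linarith, by linarith⟩
    have e0 : cis 0 = 1 := by simp [cis]
    rw [e0, mul_one] at h0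
    have hc : cis s = (Real.cos s : ℂ) + (Real.sin s : ℂ) * Complex.I := by
      unfold cis
      rw [Complex.exp_mul_I, Complex.ofReal_cos, Complex.ofReal_sin]
    have h2 : Real.sin s * ((u - z).re * (y - z).re + (u - z).im * (y - z).im) = 0 := by
      have : cr ((u - z) * cis s) (y - z) = Real.cos s * cr (u - z) (y - z) -
          Real.sin s * ((u - z).re * (y - z).re + (u - z).im * (y - z).im) := by
        rw [hc]; unfold cr
        simp only [Complex.mul_re, Complex.mul_im, Complex.add_re, Complex.add_im,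
          Complex.ofReal_re, Complex.ofReal_im, Complex.I_re, Complex.I_im, mul_zero, mul_one,
          sub_zero, add_zero, zero_add]
        ring
      rw [this, h0] at h1; linarith
    have hsin : 0 < Real.sin s := Real.sin_pos_of_pos_of_lt_pi hs0 (by
      linarith [Real.pi_gt_three])
    have h3 : (u - z).re * (y - z).re + (u - z).im * (y - z).im = 0 := by
      rcases mul_eq_zero.1 h2 with h4 | h4
      · exact absurd h4 hsin.ne'
      · exact h4
    have n1 : (u - z).re ^ 2 + (u - z).im ^ 2 = 1 := by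
      have h1 : ‖u - z‖ ^ 2 = 1 := by rw [← dist_eq_norm, hu]; norm_num
      rw [Complex.sq_norm, Complex.normSq_apply] at h1
      linear_combination h1
    have n2 : (y - z).re ^ 2 + (y - z).im ^ 2 = 1 := by
      have h1 : ‖y - z‖ ^ 2 = 1 := by rw [← dist_eq_norm, dist_comm, hy]; norm_num
      rw [Complex.sq_norm, Complex.normSq_apply] at h1
      linear_combination h1
    have h5 : cr (u - z) (y - z) ^ 2 +
        ((u - z).re * (y - z).re + (u - z).im * (y - z).im) ^ 2 =
        ((u - z).re ^ 2 + (u - z).im ^ 2) * ((y - z).re ^ 2 + (y - z).im ^ 2) := by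
      unfold cr; ring
    rw [h0, h3, n1, n2] at h5
    norm_num at h5
  set v := z + (u - z) * cis t with hv
  have hvz : dist v z = 1 := dist_rot hu _
  have hvu : v - z = (u - z) * cis t := by rw [hv]; ring
  have hδ : 0 < min (η - t) (t + η) := lt_min (by linarith [ht.2]) (by linarith [ht.1])
  have hb : ∀ o : ℝ, (o = 1 ∨ o = -1) → HB T z v o x := by
    intro o ho
    refine half_branch h hvz ho (P := P) hδ (fun s hs => ?_) (h3 t ht) (hT t ht)
    have e : z + (v - z) * cis (o * s) = z + (u - z) * cis (t + o * s) := by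
      rw [hvu, H767.cis_add]; ring
    rw [e]
    have m1 := min_le_left (η - t) (t + η)
    have m2 := min_le_right (η - t) (t + η)
    apply hP
    rcases ho with rfl | rfl
    · constructor <;> linarith [hs.1, hs.2, ht.1, ht.2]
    · constructor <;> linarith [hs.1, hs.2, ht.1, ht.2]
  rw [← hvu] at hcr
  rcases lt_or_gt_of_ne hcr with h5 | h5
  · exact two_branches h (hb (-1) (Or.inr rfl)) (hb 1 (Or.inl rfl)) hy hxy
      (by linarith) (by linarith)
  · exact two_branches h (hb 1 (Or.inl rfl)) (hb (-1) (Or.inr rfl)) hy hxy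
      (by linarith) (by linarith)

end Vale.Agent.P032.S5.H450
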