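import Vale.Agent.P032.S5.H450.Cnt5
import Vale.Agent.P032.S5.H122.Inst5
import Vale.Agent.P032.S5.H220.FrozIA

/-!
# P032: no clean five coloured point, from the word lemma

`word5_of`: a five coloured point of an irredundant frame whose circle is clean gives a word with all
rules of `Word5`; the rule on frozen events is used through `Fz (fx 1) (fy 1)` only.
-/

open Set Filter Topology Metric

noncomputable section

namespace Vale.Agent.P032.S5.H450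

open Vale.Agent.P032.Six Vale.Agent.P032.S5.H122 Vale.Agent.P032.Words.Pent
open Vale.Agent.P032.S5.H220 (Fz nofr_word5 froz_I froz_A)

variable {U : Fin 6 → Set ℂ} {T : ℂ → Set (Fin 6)} {z : ℂ} {e : Fin 6 → Fin 6}

theorem el_key : ∀ j : Fin 5, EL j.val ≠ 5 ∧ EL (j.val + 2) ≠ EL (j.val + 3) ∧
    ixs (EL (j.val + 2)) ∪ ixs (EL (j.val + 3)) = (ixs (EL j.val) ∪ ixs 5)ᶜ := by
  decide +kernel

theorem cn_word5 (h2 : Fz (fx 1) (fy 1)) (C : Cn U T z e)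
    (hmin : ∀ z, 4 ≤ (T z).ncard → ∀ s, s ⊆ T z → s ≠ T z →
      ¬ ∀ᶠ w in 𝓝 z, ∃ i ∈ s, w ∈ U i ∨ (w ∈ XX U ∧ i ∈ Pal U w))
    (hl : ∀ X c v x a d, Nd T X c v x → a ∈ X → a ∉ T c → d ∈ Xᶜ → d ∉ T c →
      ∀ y, dist y c = 1 → (T y).ncard ≤ 3) : Word5 (X5 T z e) := by
  have H : ∀ i : Fin 3, Fz (fx i) (fy i) := by
    intro i
    fin_cases i
    · exact froz_I
    · exact h2
    · exact froz_A
  refine C.word5 (fun j => ?_) fun i a s q t u hx hy _ _ _ => nofr_word5 H C i a s q t u hx hy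
  obtain ⟨k1, k2, k3⟩ := el_key j
  exact cnt5_cases_gen C hmin hl k1 k2 k3

theorem no_five_word (hw : ∀ X : Fin 6 → Set ℝ, Word5 X → False) (h2 : Fz (fx 1) (fy 1))
    (h : Irr U T)
    (hmin : ∀ z, 4 ≤ (T z).ncard → ∀ s, s ⊆ T z → s ≠ T z →
      ¬ ∀ᶠ w in 𝓝 z, ∃ i ∈ s, w ∈ U i ∨ (w ∈ XX U ∧ i ∈ Pal U w))
    (hl : ∀ X c v x a d, Nd T X c v x → a ∈ X → a ∉ T c → d ∈ Xᶜ → d ∉ T c →
      ∀ y, dist y c = 1 → (T y).ncard ≤ 3)
    (h5 : (T z).ncard = 5) (h3 : ∀ y, dist y z = 1 → (T y).ncard ≤ 3) : False := by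
  obtain ⟨e, C⟩ := exists_cn h hmin h5 h3
  exact hw _ (cn_word5 h2 C hmin hl)

/-- the form of `Irr.clean` (287): no unit pairs -/
theorem no_five_hu (hw : ∀ X : Fin 6 → Set ℝ, Word5 X → False) (h2 : Fz (fx 1) (fy 1))
    (h : Irr U T)
    (hmin : ∀ z, 4 ≤ (T z).ncard → ∀ s, s ⊆ T z → s ≠ T z →
      ¬ ∀ᶠ w in 𝓝 z, ∃ i ∈ s, w ∈ U i ∨ (w ∈ XX U ∧ i ∈ Pal U w))
    (hu : ∀ z z', 4 ≤ (T z).ncard → 4 ≤ (T z').ncard → dist z z' ≠ 1)
    (z : ℂ) (h5 : (T z).ncard = 5) : False := by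
  have h3 : ∀ c, 4 ≤ (T c).ncard → ∀ y, dist y c = 1 → (T y).ncard ≤ 3 := by
    intro c hc y hy
    by_contra h1
    exact hu y c (by omega) hc hy
  exact no_five_word hw h2 h hmin (fun X c v x a d N _ _ _ _ => h3 c (N.four h)) h5
    (h3 z (by omega))

/-- the form of `Irr.coreD_of` (843): clean circles of points with two complementary exact pairs -/
theorem no_five_hD (hw : ∀ X : Fin 6 → Set ℝ, Word5 X → False) (h2 : Fz (fx 1) (fy 1))
    (h : Irr U T)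
    (hmin : ∀ z, 4 ≤ (T z).ncard → ∀ s, s ⊆ T z → s ≠ T z →
      ¬ ∀ᶠ w in 𝓝 z, ∃ i ∈ s, w ∈ U i ∨ (w ∈ XX U ∧ i ∈ Pal U w))
    (hD : ∀ z v, dist z v = 1 → 4 ≤ (T v).ncard → (∃ a b c d, DPt T z a b c d) → False)
    (z : ℂ) (h5 : (T z).ncard = 5) (h3 : ∀ y, dist y z = 1 → (T y).ncard ≤ 3) : False := by
  refine no_five_word hw h2 h hmin (fun X c v x a d N ha hac hd hdc y hy => ?_) h5 h3
  by_contra h1
  exact hD c y (by rw [dist_comm]; exact hy) (by omega) (dpt_of_light h N ha hac hd hdc)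

end Vale.Agent.P032.S5.H450
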