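import Vale.Agent.P032.S5.H172.Rhombus

/-!
# P032: two unit discs touching at a point whose circles carry one colour

`Mx.tangent` : the unit circles about `z` and `p = 2 q - z` carry the colour `d` near `q`, and `d` is
a colour of `p`.  Then a transversal unit circle through `q` does not carry `d` on its part inside
the disc about `p`.
-/

open Set Filter Topology Metric

noncomputable section

namespace Vale.Agent.P032.S5.H450

open Vale.Agent.P032.Six

theorem side_real {n s a e κ : ℝ} (hn0 : 0 < n) (e1 : e ^ 2 = n - n ^ 2 / 4)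
    (e2 : s = -(n / 2) * a + e * κ) (e3 : a ^ 2 + κ ^ 2 = 1) (hsm : 2 * n < κ ^ 2)
    (h1 : 2 * s ≤ n) (h2 : -n < 2 * s) : False := by
  have ha1 : a ^ 2 ≤ 1 := by linarith [sq_nonneg κ]
  have hκ1 : κ ^ 2 ≤ 1 := by linarith [sq_nonneg a]
  obtain ⟨a1, a2⟩ := abs_le.1 ((sq_le_one_iff_abs_le_one a).1 ha1)
  have e4 : e * κ = s + n / 2 * a := by linarith
  have b1 : n / 2 * a ≤ n / 2 := by
    have := mul_le_mul_of_nonneg_left a2 (by positivity : 0 ≤ n / 2)
    linarith
  have b2 : -(n / 2) ≤ n / 2 * a := by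
    have := mul_le_mul_of_nonneg_left a1 (by positivity : 0 ≤ n / 2)
    linarith
  have e5 : (e * κ) ^ 2 ≤ n ^ 2 :=
    sq_le_sq' (by rw [e4]; linarith) (by rw [e4]; linarith)
  rw [mul_pow, e1] at e5
  have e7 : (1 - n / 4) * κ ^ 2 ≤ n := by
    have h3 : n * ((1 - n / 4) * κ ^ 2) ≤ n * n := by
      calc n * ((1 - n / 4) * κ ^ 2) = (n - n ^ 2 / 4) * κ ^ 2 := by ring
        _ ≤ n ^ 2 := e5
        _ = n * n := by ring
    exact le_of_mul_le_mul_left h3 hn0
  have h5 : n < 1 / 2 := by linarith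
  have h6 : (1 / 2) * κ ^ 2 ≤ (1 - n / 4) * κ ^ 2 :=
    mul_le_mul_of_nonneg_right (by linarith) (sq_nonneg κ)
  linarith

/-- the transversal circle leaves one disc into the other -/
theorem side_aux {A B δ : ℂ} (hA : A.re ^ 2 + A.im ^ 2 = 1) (hB : B.re ^ 2 + B.im ^ 2 = 1)
    (hδB : δ.re ^ 2 + δ.im ^ 2 = -2 * (δ.re * B.re + δ.im * B.im)) (hδ0 : δ ≠ 0)
    (hsm : 2 * (δ.re ^ 2 + δ.im ^ 2) < cr A B ^ 2)
    (hp : 0 < δ.re ^ 2 + δ.im ^ 2 + 2 * (δ.re * A.re + δ.im * A.im)) :
    δ.re ^ 2 + δ.im ^ 2 - 2 * (δ.re * A.re + δ.im * A.im) < 0 := by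
  have hn0 : 0 < δ.re ^ 2 + δ.im ^ 2 := by
    have h1 : 0 < Complex.normSq δ := Complex.normSq_pos.2 hδ0
    rw [Complex.normSq_apply] at h1
    linarith
  by_contra hcon
  have hb : δ.re * B.re + δ.im * B.im = -((δ.re ^ 2 + δ.im ^ 2) / 2) := by linarith
  refine side_real (n := δ.re ^ 2 + δ.im ^ 2) (s := δ.re * A.re + δ.im * A.im)
    (a := A.re * B.re + A.im * B.im) (e := cr δ B) (κ := cr A B) hn0 ?_ ?_ ?_ hsm
    (by linarith) (by linarith)
  · have : cr δ B ^ 2 = (δ.re ^ 2 + δ.im ^ 2) * (B.re ^ 2 + B.im ^ 2) -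
        (δ.re * B.re + δ.im * B.im) ^ 2 := by unfold cr; ring
    rw [this, hB, hb]; ring
  · have : (δ.re * A.re + δ.im * A.im) * (B.re ^ 2 + B.im ^ 2) =
        (δ.re * B.re + δ.im * B.im) * (A.re * B.re + A.im * B.im) + cr δ B * cr A B := by
      unfold cr; ring
    rw [hB, mul_one, hb] at this
    exact this
  · have : (A.re * B.re + A.im * B.im) ^ 2 + cr A B ^ 2 =
        (A.re ^ 2 + A.im ^ 2) * (B.re ^ 2 + B.im ^ 2) := by unfold cr; ring
    rw [this, hA, hB]; ring

variable {k : ℕ} {U : Fin k → Set ℂ}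

/-- **Tangent lemma.** -/
theorem Mx.tangent (h : Mx U) {z p q w : ℂ} {d : Fin k} (hp : dist q p = 1)
    (hzp : z + p = 2 * q) (hw : dist q w = 1) (hwz : z ≠ w) (hwp : p ≠ w) (hd : d ∈ Pal U p)
    (hSz : ∀ᶠ x in 𝓝[sphere z 1] q, d ∈ Pal U x) (hSp : ∀ᶠ x in 𝓝[sphere p 1] q, d ∈ Pal U x)
    (hH : ∀ᶠ x in 𝓝[sphere w 1] q, dist x p < 1 → d ∈ Pal U x) : False := by
  obtain ⟨θ, hθ⟩ := exists_cis (u := q - p) (by rw [← dist_eq_norm]; exact hp)
  have hpq : p + cis θ = q := by rw [← hθ]; ring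
  have hz : z = 2 * q - p := by linear_combination hzp
  have hzq : dist q z = 1 := by
    rw [hz, dist_eq_norm, show q - (2 * q - p) = -(q - p) by ring, norm_neg, ← dist_eq_norm]
    exact hp
  have hcr : cr (q - p) (q - w) ≠ 0 :=
    cr_ne hp (by rw [dist_comm]; rw [dist_comm] at hw; exact hw) hwp
      (fun h1 => hwz (by linear_combination hzp - h1))
  have hA : (q - p).re ^ 2 + (q - p).im ^ 2 = 1 := by
    have h1 : ‖q - p‖ ^ 2 = 1 := by rw [← dist_eq_norm, hp]; norm_num
    rw [Complex.sq_norm, Complex.normSq_apply] at h1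
    linear_combination h1
  have hB : (q - w).re ^ 2 + (q - w).im ^ 2 = 1 := by
    have h1 : ‖q - w‖ ^ 2 = 1 := by rw [← dist_eq_norm, hw]; norm_num
    rw [Complex.sq_norm, Complex.normSq_apply] at h1
    linear_combination h1
  -- the neighbourhood of `q`
  obtain ⟨r1, hr1, h1⟩ := Metric.mem_nhdsWithin_iff.1 hSz
  obtain ⟨r2, hr2, h2⟩ := Metric.mem_nhdsWithin_iff.1 hSp
  obtain ⟨r3, hr3, h3⟩ := Metric.mem_nhdsWithin_iff.1 hH
  have hr4 : 0 < |cr (q - p) (q - w)| / 2 := by positivity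
  set ρ := min (min r1 r2) (min r3 (|cr (q - p) (q - w)| / 2)) with hρ
  have hρ0 : 0 < ρ := lt_min (lt_min hr1 hr2) (lt_min hr3 hr4)
  have l1 : ρ ≤ r1 := (min_le_left _ _).trans (min_le_left _ _)
  have l2 : ρ ≤ r2 := (min_le_left _ _).trans (min_le_right _ _)
  have l3 : ρ ≤ r3 := (min_le_right _ _).trans (min_le_left _ _)
  have l4 : ρ ≤ |cr (q - p) (q - w)| / 2 := (min_le_right _ _).trans (min_le_right _ _)
  have hdq : d ∈ Pal U q := h1 ⟨mem_ball_self hr1, hzq⟩
  -- the side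
  have hside : ∀ x, dist x q < ρ → dist x w = 1 → x ≠ q → 1 < dist x p → dist x z < 1 := by
    intro x hx hxw hxq hxp
    have n1 : dist x w ^ 2 = (x - q).re ^ 2 + (x - q).im ^ 2 +
        2 * ((x - q).re * (q - w).re + (x - q).im * (q - w).im) +
        ((q - w).re ^ 2 + (q - w).im ^ 2) := by
      rw [dist_eq_norm, Complex.sq_norm, Complex.normSq_apply]
      simp only [Complex.sub_re, Complex.sub_im]; ring
    have n2 : dist x p ^ 2 = (x - q).re ^ 2 + (x - q).im ^ 2 +
        2 * ((x - q).re * (q - p).re + (x - q).im * (q - p).im) +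
        ((q - p).re ^ 2 + (q - p).im ^ 2) := by
      rw [dist_eq_norm, Complex.sq_norm, Complex.normSq_apply]
      simp only [Complex.sub_re, Complex.sub_im]; ring
    have n3 : dist x z ^ 2 = (x - q).re ^ 2 + (x - q).im ^ 2 -
        2 * ((x - q).re * (q - p).re + (x - q).im * (q - p).im) +
        ((q - p).re ^ 2 + (q - p).im ^ 2) := by
      rw [hz, dist_eq_norm, Complex.sq_norm, Complex.normSq_apply]
      simp only [Complex.sub_re, Complex.sub_im, Complex.mul_re, Complex.mul_im, Complex.re_ofNat,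
        Complex.im_ofNat]; ring
    have n4 : dist x q ^ 2 = (x - q).re ^ 2 + (x - q).im ^ 2 := by
      rw [dist_eq_norm, Complex.sq_norm, Complex.normSq_apply]; ring
    rw [hxw, hB] at n1
    rw [hA] at n2 n3
    have m1 : 1 < dist x p ^ 2 := by nlinarith
    have m2 : dist x q < |cr (q - p) (q - w)| / 2 := lt_of_lt_of_le hx l4
    have m3 : 2 * dist x q ^ 2 < cr (q - p) (q - w) ^ 2 := by
      have : 0 ≤ dist x q := dist_nonneg
      rw [← sq_abs (cr (q - p) (q - w))]
      nlinarith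
    have key := side_aux (A := q - p) (B := q - w) (δ := x - q) hA hB (by linarith)
      (sub_ne_zero.2 hxq) (by rw [← n4]; exact m3) (by linarith)
    have m4 : dist x z ^ 2 < 1 := by rw [n3]; linarith
    have : 0 ≤ dist x z := dist_nonneg
    nlinarith
  -- angles
  have hcis : ∀ᶠ s in 𝓝 θ, dist (cis s) (cis θ) < ρ / 2 :=
    continuous_cis.continuousAt.eventually (ball_mem_nhds _ (by positivity))
  obtain ⟨η0, hη0, hη0'⟩ := Metric.eventually_nhds_iff.1 hcis
  set η := min η0 1 with hη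
  have hη1 : 0 < η := lt_min hη0 one_pos
  have hηle : η ≤ η0 := min_le_left _ _
  have hηle1 : η ≤ 1 := min_le_right _ _
  have hcross := crossing (c := p) (q₀ := w) (t0 := θ) (by rw [hpq]; exact hw)
    (by rw [hpq, ← hθ]; exact hcr) hη1
  have hlim : Tendsto (fun p' : ℂ => w + p - p') (𝓝 p) (𝓝 w) := by
    have hc : Continuous fun p' : ℂ => w + p - p' := by fun_prop
    have := hc.tendsto p
    have e : w + p - p = w := by ring
    rwa [e] at this
  have c1 := hlim.eventually hcross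
  have c2 : ∀ᶠ p' in 𝓝 p, 1 < dist (p' + cis (θ + η / 2)) z := by
    have hc : Continuous fun p' : ℂ => dist (p' + cis (θ + η / 2)) z := by fun_prop
    refine hc.continuousAt.eventually (Ioi_mem_nhds ?_)
    have g1 : dist (p + cis (θ + η / 2)) z ^ 2 = 5 - 4 * Real.cos (η / 2) := by
      have g0 : p + cis (θ + η / 2) - z = cis (θ + η / 2) - 2 * cis θ := by
        rw [hz, ← hpq]; ring
      rw [dist_eq_norm, g0, Complex.sq_norm, Complex.normSq_apply]
      unfold cis
      simp only [Complex.sub_re, Complex.sub_im, Complex.mul_re, Complex.mul_im, Complex.re_ofNat,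
        Complex.im_ofNat, Complex.exp_ofReal_mul_I_re, Complex.exp_ofReal_mul_I_im]
      rw [Real.cos_add, Real.sin_add]
      have t1 := Real.sin_sq_add_cos_sq θ
      have t2 := Real.sin_sq_add_cos_sq (η / 2)
      linear_combination (5 - 4 * Real.cos (η / 2)) * t1 +
        (Real.sin θ ^ 2 + Real.cos θ ^ 2) * t2
    have g2 : Real.cos (η / 2) < 1 := by
      have := Real.cos_lt_cos_of_nonneg_of_le_pi le_rfl
        (by linarith [Real.pi_gt_three] : η / 2 ≤ Real.pi) (by linarith : (0 : ℝ) < η / 2)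
      rwa [Real.cos_zero] at this
    have g3 : 1 < dist (p + cis (θ + η / 2)) z ^ 2 := by rw [g1]; linarith
    have g4 : 0 ≤ dist (p + cis (θ + η / 2)) z := dist_nonneg
    show 1 < dist (p + cis (θ + η / 2)) z
    nlinarith
  have c3 : ∀ᶠ p' in 𝓝 p, dist p' p < ρ / 2 := ball_mem_nhds _ (by positivity)
  obtain ⟨p', ⟨⟨hp1, hp2⟩, hp3⟩, hp'U⟩ := mem_closure_iff_nhds.1 hd _ ((c1.and c2).and c3)
  obtain ⟨t, ht, ht1⟩ := hp1
  have hball : ∀ s, |s - θ| < η → dist (p' + cis s) q < ρ := by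
    intro s hs
    have a1 := hη0' (y := s) (by rw [Real.dist_eq]; exact lt_of_lt_of_le hs hηle)
    calc dist (p' + cis s) q = dist (p' + cis s) (p + cis θ) := by rw [hpq]
      _ ≤ dist p' p + dist (cis s) (cis θ) := dist_add_add_le _ _ _ _
      _ < ρ := by linarith
  have hno : ∀ s, d ∉ Pal U (p' + cis s) := fun s =>
    h.notMem' hp'U (by rw [dist_comm]; exact dist_add_cis p' s)
  set x := p' + cis t with hx
  have hxw : dist x w = 1 := by
    have : x - w = p + cis t - (w + p - p') := by rw [hx]; ring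
    rw [dist_eq_norm, this, ← dist_eq_norm]; exact ht1
  have hxq : x ≠ q := fun h5 => hno t (by rw [← hx, h5]; exact hdq)
  have hxρ := hball t ht
  have hxp : 1 < dist x p := by
    rcases lt_trichotomy (dist x p) 1 with h5 | h5 | h5
    · exact absurd (h3 ⟨lt_of_lt_of_le hxρ l3, hxw⟩ h5) (hno t)
    · exact absurd (h2 ⟨lt_of_lt_of_le hxρ l2, h5⟩) (hno t)
    · exact h5
  have hxz := hside x hxρ hxw hxq hxp
  have hcont : ContinuousOn (fun s => dist (p' + cis s) z) (uIcc t (θ + η / 2)) :=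
    ((continuous_const.add continuous_cis).dist continuous_const).continuousOn
  have hmem : (1 : ℝ) ∈ uIcc (dist (p' + cis t) z) (dist (p' + cis (θ + η / 2)) z) := by
    rw [uIcc_of_le (hxz.le.trans hp2.le)]; exact ⟨hxz.le, hp2.le⟩
  obtain ⟨s, hs, hs1⟩ := intermediate_value_uIcc hcont hmem
  have hsθ : |s - θ| < η := by
    rw [abs_lt] at ht ⊢
    rw [mem_uIcc] at hs
    rcases hs with hs | hs
    · constructor <;> linarith [hs.1, hs.2, ht.1, ht.2]
    · constructor <;> linarith [hs.1, hs.2, ht.1, ht.2]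
  exact hno s (h1 ⟨lt_of_lt_of_le (hball s hsθ) l1, hs1⟩)

end Vale.Agent.P032.S5.H450
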