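import Vale.Agent.P032.S5.H450.Node
import Vale.Agent.P032.S5.H450.Tangent
import Vale.Agent.P032.S5.H349.Bridge
import Vale.Agent.P032.S5.H394.Ends
import Vale.Agent.P032.S5.H80.Clean

/-!
# P032: the two half branches of a circle at a three coloured point

`Nd.branch` : if `v` is the only point with palette `X` on `S(c)` near `v`, both half branches of
`S(c)` at `v` are pure: exactly `X \ {r}`, or `r` everywhere (`c` light, `r` missing).
`Nd.cln` : then `v` is a clean end.  `Nd.no_tangent` : and there are no two heavy centres on a line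
through `v`.
-/

open Set Filter Topology Metric

noncomputable section

namespace Vale.Agent.P032.S5.H450

open Vale.Agent.P032.Six

variable {U : Fin 6 → Set ℂ} {T : ℂ → Set (Fin 6)} {X : Set (Fin 6)} {c v q : ℂ} {r : Fin 6}

theorem tendsto_circ {c v : ℂ} (hv : dist v c = 1) (o t : ℝ) :
    Tendsto (fun s : ℝ => c + (v - c) * cis (o * s)) (𝓝 t)
      (𝓝[sphere c 1] (c + (v - c) * cis (o * t))) := by
  refine tendsto_nhdsWithin_iff.2 ⟨?_, Eventually.of_forall fun s => dist_rot hv _⟩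
  have hc : Continuous fun s : ℝ => c + (v - c) * cis (o * s) :=
    continuous_const.add (continuous_const.mul (continuous_cis.comp (by fun_prop)))
  exact hc.tendsto t

theorem circ_ne {c v : ℂ} (hv : dist v c = 1) {o t : ℝ} (ho : o = 1 ∨ o = -1) (h0 : 0 < t)
    (h1 : t < 1) : c + (v - c) * cis (o * t) ≠ v := by
  intro h5
  have hne : v - c ≠ 0 := by
    intro h6
    rw [dist_eq_norm, h6, norm_zero] at hv
    exact zero_ne_one hv
  have h6 : (v - c) * cis (o * t) = (v - c) * 1 := by linear_combination h5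
  have h7 := mul_left_cancel₀ hne h6
  have ho' : -o = 1 ∨ -o = -1 := by
    rcases ho with rfl | rfl
    · exact Or.inr rfl
    · exact Or.inl (by norm_num)
  have h8 := (cis_ne ho' h0 h1).1
  apply h8
  rw [show -(-o * t) = o * t by ring]
  exact h7

namespace Nd

theorem dvc (N : Nd T X c v q) : dist v c = 1 := by rw [dist_comm]; exact N.dv

/-- on the circle of a light centre, near `v` -/
theorem exact_or (h : Irr U T) (N : Nd T X c v q) (hr : r ∈ X) (hrc : r ∉ T c) {y : ℂ}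
    (hsub : T y ⊆ X) (hry : r ∉ T y) :
    ∀ᶠ q' in 𝓝[sphere c 1] y, T q' = X \ {r} :=
  h.pair_open (N.two_sdiff hr) (N.rest h hr hrc) fun i hi => ⟨hsub hi, fun h5 => hry (by
    rw [mem_singleton_iff] at h5; exact h5 ▸ hi)⟩

/-- **Pure half branches.** -/
theorem branch (h : Irr U T) (N : Nd T X c v q) (hr : r ∈ X) (hrc : r ∉ T c)
    (iso : ∀ᶠ y in 𝓝[sphere c 1] v, T y = X → y = v) :
    ∃ ε, 0 < ε ∧ ε ≤ 1 / 2 ∧
      (∀ o, (o = 1 ∨ o = -1) → ∀ t ∈ Ioo 0 ε, T (c + (v - c) * cis (o * t)) ⊆ X ∧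
        T (c + (v - c) * cis (o * t)) ≠ X) ∧
      ∀ o, (o = 1 ∨ o = -1) →
        (∀ t ∈ Ioo 0 ε, T (c + (v - c) * cis (o * t)) = X \ {r}) ∨
        (∀ t ∈ Ioo 0 ε, r ∈ T (c + (v - c) * cis (o * t))) := by
  have hev : ∀ᶠ y in 𝓝[sphere c 1] v, T y ⊆ X ∧ (T y = X → y = v) := by
    filter_upwards [iso, mem_nhdsWithin_of_mem_nhds (h.nhd v)] with y h1 h2
    exact ⟨N.Tv ▸ h2, h1⟩
  rw [eventually_circle N.dvc] at hev
  obtain ⟨ε0, hε0, hball⟩ := Metric.eventually_nhds_iff.1 hev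
  have hball' : ∀ o t : ℝ, (o = 1 ∨ o = -1) → t ∈ Ioo 0 (min ε0 (1 / 2)) →
      T (c + (v - c) * cis (o * t)) ⊆ X ∧ T (c + (v - c) * cis (o * t)) ≠ X := by
    intro o t ho ht
    have h1 : t < ε0 := ht.2.trans_le (min_le_left _ _)
    have h2 : t < 1 / 2 := ht.2.trans_le (min_le_right _ _)
    have h3 : |o * t| < ε0 := by
      rcases ho with rfl | rfl
      · rw [one_mul, abs_of_pos ht.1]; exact h1
      · rw [neg_one_mul, abs_neg, abs_of_pos ht.1]; exact h1
    obtain ⟨h4, h5⟩ := hball (y := o * t) (by rw [Real.dist_eq, sub_zero]; exact h3)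
    exact ⟨h4, fun h6 => circ_ne N.dvc ho ht.1 (by linarith) (h5 h6)⟩
  refine ⟨min ε0 (1 / 2), lt_min hε0 (by norm_num), min_le_right _ _,
    fun o ho t ht => hball' o t ho ht, fun o ho => ?_⟩
  set ε := min ε0 (1 / 2) with hε
  set A := {t | t ∈ Ioo 0 ε ∧ T (c + (v - c) * cis (o * t)) = X \ {r}} with hA
  set B := {t | t ∈ Ioo 0 ε ∧ r ∈ T (c + (v - c) * cis (o * t))} with hB
  have hAo : IsOpen A := by
    rw [isOpen_iff_mem_nhds]
    rintro t ⟨ht, hT⟩
    have h1 := (tendsto_circ N.dvc o t).eventually (N.exact_or h hr hrc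
      (hball' o t ho ht).1 (by rw [hT]; simp))
    filter_upwards [h1, isOpen_Ioo.mem_nhds ht] with s h2 h3
    exact ⟨h3, h2⟩
  have hcov : ∀ t ∈ Ioo 0 ε, t ∈ A ∪ B := by
    intro t ht
    by_cases h1 : r ∈ T (c + (v - c) * cis (o * t))
    · exact Or.inr ⟨ht, h1⟩
    · have h2 := N.exact_or h hr hrc (hball' o t ho ht).1 h1
      exact Or.inl ⟨ht, h2.self_of_nhdsWithin (dist_rot N.dvc (o * t))⟩
  have hBo : IsOpen B := by
    rw [isOpen_iff_mem_nhds]
    rintro t ⟨ht, hT⟩
    obtain ⟨h4, h5⟩ := hball' o t ho ht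
    obtain ⟨s, hs, hsT⟩ : ∃ s ∈ X, s ∉ T (c + (v - c) * cis (o * t)) := by
      by_contra hcon
      push Not at hcon
      exact h5 (Subset.antisymm h4 hcon)
    have hsr : s ≠ r := fun h6 => hsT (h6 ▸ hT)
    have h1 := (tendsto_circ N.dvc o t).eventually (mem_nhdsWithin_of_mem_nhds (h.nhd _))
    filter_upwards [h1, isOpen_Ioo.mem_nhds ht] with t' h2 h3
    rcases hcov t' h3 with h6 | h6
    · exfalso
      apply hsT
      apply h2
      rw [h6.2]
      exact ⟨hs, hsr⟩
    · exact h6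
  have hdis : Disjoint A B := by
    rw [Set.disjoint_left]
    rintro t ⟨-, h1⟩ ⟨-, h2⟩
    rw [h1] at h2
    exact h2.2 rfl
  by_cases hne : (Ioo 0 ε ∩ A).Nonempty
  · left
    intro t ht
    exact (isPreconnected_Ioo.subset_left_of_subset_union hAo hBo hdis hcov hne ht).2
  · right
    intro t ht
    rcases hcov t ht with h1 | h1
    · exact absurd ⟨t, ht, h1⟩ hne
    · exact h1.2

/-- not both half branches are exact -/
theorem not_both (h : Irr U T) (N : Nd T X c v q) {ε : ℝ} (hε : 0 < ε)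
    (h1 : ∀ t ∈ Ioo 0 ε, T (c + (v - c) * cis (1 * t)) = X \ {r})
    (h2 : ∀ t ∈ Ioo 0 ε, T (c + (v - c) * cis (-1 * t)) = X \ {r}) {p : ℂ} (hp : dist p v = 1)
    {s : Fin 6} (hs : s ∈ X) (hsr : s ≠ r) (hsp : s ∈ T p) : p = c ∨ p + c = 2 * v := by
  refine Stay.line h (t := s) N.dv ?_ hp hsp
  unfold Stay
  rw [eventually_circle N.dvc]
  filter_upwards [Ioo_mem_nhds (show -ε < 0 by linarith) hε] with t ht
  rcases lt_trichotomy t 0 with h3 | h3 | h3
  · have := h2 (-t) ⟨by linarith, by linarith [ht.1]⟩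
    rw [show -1 * -t = t by ring] at this
    rw [this]; exact ⟨hs, hsr⟩
  · rw [h3, show c + (v - c) * cis 0 = v by simp [cis], N.Tv]; exact hs
  · have := h1 t ⟨h3, ht.2⟩
    rw [one_mul] at this
    rw [this]; exact ⟨hs, hsr⟩

/-- **clean end** -/
theorem cln (h : Irr U T) (N : Nd T X c v q) (hr : r ∈ X) (hrc : r ∉ T c)
    (iso : ∀ᶠ y in 𝓝[sphere c 1] v, T y = X → y = v) : H349.Cln T c v := by
  obtain ⟨ε, hε, hε2, hsub, hbr⟩ := N.branch h hr hrc iso
  have hcap : T c ∩ T v = X \ {r} := N.inter_eq h hr hrc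
  have key : ∀ o, (o = 1 ∨ o = -1) →
      (∀ t ∈ Ioo 0 ε, T (c + (v - c) * cis (-(o * t))) = X \ {r}) →
      (∀ t ∈ Ioo 0 ε, r ∈ T (c + (v - c) * cis (o * t))) → H349.Cln T c v := by
    intro o ho h1 h2
    refine ⟨o, ε, ho, hε, ?_, ?_⟩
    · rw [hcap]; exact h1
    · intro t ht h3
      rw [hcap] at h3
      obtain ⟨h4, h5⟩ := hsub o ho t ht
      apply h5
      refine Subset.antisymm h4 fun i hi => ?_
      by_cases hir : i = r
      · rw [hir]; exact h2 t ht
      · exact h3 ⟨hi, hir⟩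
  rcases hbr 1 (Or.inl rfl) with h1 | h1 <;> rcases hbr (-1) (Or.inr rfl) with h2 | h2
  · exfalso
    obtain ⟨s, hs1, hs2, hs3⟩ := N.other.five h r
    rcases N.not_both h hε h1 h2 N.other.dv hs2 hs3 hs1 with h3 | h3
    · exact N.ne_other h3
    · exact N.off_other h3
  · refine key (-1) (Or.inr rfl) (fun t ht => ?_) h2
    rw [show -(-1 * t) = 1 * t by ring]
    exact h1 t ht
  · refine key 1 (Or.inl rfl) (fun t ht => ?_) h1
    rw [show -(1 * t) = -1 * t by ring]
    exact h2 t ht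
  · exfalso
    have hall : ∀ᶠ y in 𝓝[sphere c 1] v, r ∈ T y := by
      rw [eventually_circle N.dvc]
      filter_upwards [Ioo_mem_nhds (show -ε < 0 by linarith) hε] with t ht
      rcases lt_trichotomy t 0 with h3 | h3 | h3
      · have := h2 (-t) ⟨by linarith, by linarith [ht.1]⟩
        rwa [show -1 * -t = t by ring] at this
      · rw [h3, show c + (v - c) * cis 0 = v by simp [cis], N.Tv]; exact hr
      · have := h1 t ⟨h3, ht.2⟩
        rwa [one_mul] at this
    obtain ⟨V, hV, hVs⟩ := mem_nhdsWithin_iff_exists_mem_nhds_inter.1 hall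
    obtain ⟨y, hy, hyc, hyP⟩ := N.acc h hr hrc V hV
    have h3 : r ∈ T y := hVs ⟨hy, hyc⟩
    have h4 : T y = X \ {r} := hyP.self_of_nhdsWithin (show y ∈ sphere c 1 from hyc)
    rw [h4] at h3
    exact h3.2 rfl

/-- **No two heavy centres on a line through `v`.** -/
theorem no_tangent (h : Irr U T) (N : Nd T X c v q) (hr : r ∈ X) (hrc : r ∉ T c)
    (iso : ∀ᶠ y in 𝓝[sphere c 1] v, T y = X → y = v) {z p : ℂ} (hz : dist z v = 1)
    (hzp : z + p = 2 * v) (hXz : X ⊆ T z) (hXp : X ⊆ T p) : False := by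
  obtain ⟨ε, hε, hε2, hsub, hbr⟩ := N.branch h hr hrc iso
  have hzc : z ≠ c := fun h5 => hrc (h5 ▸ hXz hr)
  have hpc : p ≠ c := fun h5 => hrc (h5 ▸ hXp hr)
  have hp : dist p v = 1 := by
    have e : p = 2 * v - z := by linear_combination hzp
    rw [e, dist_eq_norm, show 2 * v - z - v = -(z - v) by ring, norm_neg, ← dist_eq_norm]
    exact hz
  have stz := N.stay h hr hrc hzc (sdiff_subset.trans hXz)
  have stp := N.stay h hr hrc hpc (sdiff_subset.trans hXp)
  have hcr : cr (v - c) (v - p) ≠ 0 := cr_ne N.dvc (by rw [dist_comm]; exact hp) hpc.symm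
    (fun h5 => hzc (by linear_combination hzp - h5))
  -- a half branch inside the disc about `p'` is exact
  have key : ∀ {z' p' : ℂ}, dist p' v = 1 → z' + p' = 2 * v → z' ≠ c → p' ≠ c → r ∈ T p' →
      Stay T z' v r → Stay T p' v r → ∀ o, (o = 1 ∨ o = -1) → o * cr (v - c) (v - p') < 0 →
      ∀ t ∈ Ioo 0 ε, T (c + (v - c) * cis (o * t)) = X \ {r} := by
    intro z' p' hp' hzp' hz'c hp'c hrp' st1 st2 o ho hs
    rcases hbr o ho with h1 | h1
    · exact h1
    exfalso
    have hpv : dist v p' = 1 := by rw [dist_comm]; exact hp'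
    refine Mx.tangent h.mx (z := z') (p := p') (q := v) (w := c) (d := r) hpv hzp' N.dvc
      hz'c hp'c (h.sub _ hrp') (st1.mono fun y hy => h.sub y hy)
      (st2.mono fun y hy => h.sub y hy) ?_
    rw [eventually_circle N.dvc]
    have hs' : 0 < -o * cr (v - c) (v - p') := by linarith
    have hout := arc_out (C := c) (P := v) (g := p') hpv (τ := -o) hs'
    obtain ⟨δ, hδ, hδo⟩ := mem_nhdsGT_iff_exists_Ioo_subset.1 hout
    have hδ' : (0 : ℝ) < δ := hδ
    filter_upwards [Ioo_mem_nhds (show -(min ε δ) < 0 by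
      have := lt_min hε hδ'; linarith) (lt_min hε hδ')] with t ht hlt
    have m1 := min_le_left ε δ
    have m2 := min_le_right ε δ
    -- `t = o * s`
    obtain ⟨s, hs1⟩ : ∃ s, t = o * s := by
      refine ⟨o * t, ?_⟩
      rcases ho with rfl | rfl <;> ring
    have hsabs : |s| < min ε δ := by
      have h5 : |s| = |t| := by
        rw [hs1, abs_mul]
        rcases ho with rfl | rfl <;> simp
      rw [h5, abs_lt]; exact ht
    rw [abs_lt] at hsabs
    rcases lt_trichotomy s 0 with h3 | h3 | h3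
    · exfalso
      have h6 : -s ∈ Ioo 0 δ := ⟨by linarith, by linarith [hsabs.1]⟩
      have h7 : 1 < dist (c + (v - c) * cis (-o * -s)) p' := hδo h6
      rw [show -o * -s = t by rw [hs1]; ring] at h7
      linarith
    · exfalso
      rw [hs1, h3, mul_zero, show c + (v - c) * cis 0 = v by simp [cis], hpv] at hlt
      exact lt_irrefl _ hlt
    · rw [hs1]
      exact h.sub _ (h1 s ⟨h3, by linarith [hsabs.2]⟩)
  have e1 : v - p = -(v - z) := by linear_combination -hzp
  have hcr2 : cr (v - c) (v - p) = -cr (v - c) (v - z) := by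
    rw [e1]; unfold cr; simp; ring
  have hboth : (∀ t ∈ Ioo 0 ε, T (c + (v - c) * cis (1 * t)) = X \ {r}) ∧
      (∀ t ∈ Ioo 0 ε, T (c + (v - c) * cis (-1 * t)) = X \ {r}) := by
    rcases lt_or_gt_of_ne hcr with h5 | h5
    · refine ⟨key hp hzp hzc hpc (hXp hr) stz stp 1 (Or.inl rfl) (by linarith),
        key hz (by rw [add_comm]; exact hzp) hpc hzc (hXz hr) stp stz (-1) (Or.inr rfl) ?_⟩
      rw [hcr2] at h5; linarith
    · refine ⟨key hz (by rw [add_comm]; exact hzp) hpc hzc (hXz hr) stp stz 1 (Or.inl rfl) ?_,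
        key hp hzp hzc hpc (hXp hr) stz stp (-1) (Or.inr rfl) (by linarith)⟩
      rw [hcr2] at h5; linarith
  obtain ⟨s, hs⟩ : (X \ {r}).Nonempty :=
    Set.nonempty_of_ncard_ne_zero (by rw [N.two_sdiff hr]; norm_num)
  rcases N.not_both h hε hboth.1 hboth.2 hz hs.1 hs.2 (hXz hs.1) with h5 | h5
  · exact hzc h5
  · exact hpc (by linear_combination hzp - h5)

end Nd

end Vale.Agent.P032.S5.H450
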