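import Vale.Agent.P032.S5.H450.OneOne
import Vale.Agent.P032.S5.H122.Raw5
import Vale.Agent.P032.S5.H122.OneOneD
import Vale.Agent.P032.S5.H555.Penta

/-!
# P032: the contacts of a clean five coloured centre

`cnt5`: a contact of the letter `E_j` with the missing colour and a contact of `E_(j+2)` with
`E_(j+3)` on one circle are the only contacts of their types.  `exists_cn`: a five coloured point of
an irredundant frame without unit pairs is a clean centre `Cn` (pentagon of 555).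
-/

open Set Filter Topology Metric

noncomputable section

namespace Vale.Agent.P032.S5.H450

open Vale.Agent.P032.Six Vale.Agent.P032.S5.H122

variable {U : Fin 6 → Set ℂ} {T : ℂ → Set (Fin 6)} {z : ℂ} {e : Fin 6 → Fin 6}

theorem cnt_key : ∀ a b c l x : Fin 6, a ≠ 5 → b ≠ c → ixs b ∪ ixs c = (ixs a ∪ ixs 5)ᶜ → x ∈ ixs b →
    x ∈ ixs c → ixs l ≠ (ixs b ∪ ixs c) \ {x} := by
  decide +kernel

theorem cnt_key2 : ∀ a b c : Fin 6, a ≠ 5 → b ≠ c → ixs b ∪ ixs c = (ixs a ∪ ixs 5)ᶜ →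
    (∃ x, x ∈ ixs b ∧ x ∈ ixs c) ∧ (ixs a ∪ ixs 5).card = 3 ∧ (5 : Fin 6) ∉ ixs b ∪ ixs c := by
  decide +kernel

theorem Sx_union (C : Cn U T z e) (a b : Fin 6) : Sx e (col e a ∪ col e b) = ixs a ∪ ixs b := by
  ext m
  rw [mem_Sx, Set.mem_union, ← mem_Sx, ← mem_Sx, C.Sx_col, C.Sx_col, Finset.mem_union]

theorem Sx_compl (P : Set (Fin 6)) : Sx e Pᶜ = (Sx e P)ᶜ := by
  ext m
  rw [mem_Sx, Finset.mem_compl, mem_Sx, Set.mem_compl_iff]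

theorem Sx_inj (C : Cn U T z e) {P Q : Set (Fin 6)} (h : Sx e P = Sx e Q) : P = Q := by
  rw [← C.image_Sx P, ← C.image_Sx Q, h]

/-- **The contacts `E_a | f` and `E_b | E_c`** (`b`, `c` complementary to `a`, `f`). -/
theorem cnt5_gen (C : Cn U T z e)
    (hmin : ∀ z, 4 ≤ (T z).ncard → ∀ s, s ⊆ T z → s ≠ T z →
      ¬ ∀ᶠ w in 𝓝 z, ∃ i ∈ s, w ∈ U i ∨ (w ∈ XX U ∧ i ∈ Pal U w))
    (hl : ∀ X c v x a d, Nd T X c v x → a ∈ X → a ∉ T c → d ∈ Xᶜ → d ∉ T c →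
      ∀ y, dist y c = 1 → (T y).ncard ≤ 3)
    {a b c : Fin 6} (ha : a ≠ 5) (hbc : b ≠ c) (hab : ixs b ∪ ixs c = (ixs a ∪ ixs 5)ᶜ)
    {u u' w w' : ℝ} (hua : u ∈ X5 T z e a) (hu5 : u ∈ X5 T z e 5) (hua' : u' ∈ X5 T z e a)
    (hu5' : u' ∈ X5 T z e 5) (hwb : w ∈ X5 T z e b) (hwc : w ∈ X5 T z e c)
    (hwb' : w' ∈ X5 T z e b) (hwc' : w' ∈ X5 T z e c) :
    (∃ n : ℤ, u = u' + 6 * (n : ℝ)) ∧ ∃ n : ℤ, w = w' + 6 * (n : ℝ) := by
  obtain ⟨⟨x, hxb, hxc⟩, h3, h5bc⟩ := cnt_key2 a b c ha hbc hab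
  have h5 : (T z).ncard = 5 := by
    have h1 := C.five
    by_contra hne
    have h2 : e 5 ∈ T z := by
      have h4 : T z = univ := by
        refine Set.eq_of_subset_of_ncard_le (subset_univ _) ?_ (Set.toFinite _)
        rw [Set.ncard_univ, Nat.card_eq_fintype_card, Fintype.card_fin]
        omega
      rw [h4]; exact mem_univ _
    exact (C.pal 5).1 h2 rfl
  have hX3 : (col e a ∪ col e 5).ncard = 3 := by
    rw [← C.card, Sx_union C, h3]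
  have hcompl : col e b ∪ col e c = (col e a ∪ col e 5)ᶜ := by
    refine Sx_inj C ?_
    rw [Sx_union C, Sx_compl, Sx_union C, hab]
  have hXz : (col e a ∪ col e 5)ᶜ ⊆ T z := by
    rw [← hcompl]
    intro i hi
    obtain ⟨l, rfl⟩ := C.bij.2 i
    have h1 : l ∈ ixs b ∪ ixs c := by rw [← Sx_union C, mem_Sx]; exact hi
    exact (C.pal l).2 fun h2 => h5bc (h2 ▸ h1)
  have hd : e x ∈ (col e a ∪ col e 5)ᶜ := by
    rw [← hcompl]
    exact Or.inl ⟨x, hxb, rfl⟩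
  have hno : ∀ y, dist y z = 1 → T y ≠ (col e a ∪ col e 5)ᶜ \ {e x} := by
    intro y hy hTy
    have h1 : T y ⊆ T z := by
      rw [hTy]; exact sdiff_subset.trans hXz
    have h6 : (T y).ncard = 2 := by
      rw [hTy, Set.ncard_sdiff_singleton_of_mem hd]
      have h7 := Set.ncard_add_ncard_compl (col e a ∪ col e 5)
      rw [hX3, Nat.card_eq_fintype_card, Fintype.card_fin] at h7
      omega
    obtain ⟨l, hl⟩ := C.pairs y hy h6 h1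
    refine cnt_key a b c l x ha hbc hab hxb hxc ?_
    rw [← C.Sx_col, ← hl, hTy]
    ext m
    rw [mem_Sx, Finset.mem_sdiff, ← Sx_union C, mem_Sx, hcompl, Finset.mem_singleton]
    constructor
    · rintro ⟨h7, h8⟩
      exact ⟨h7, fun h9 => h8 (by rw [h9]; rfl)⟩
    · rintro ⟨h7, h8⟩
      exact ⟨h7, fun h9 => h8 (C.inj h9)⟩
  have ends : ∀ {t : ℝ}, t ∈ X5 T z e a → ∃ P, T z ∩ (col e a ∪ col e 5) ⊆ P ∧
      H767.pt z t ∈ closure (H767.Ex T z P) := by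
    intro t ht
    obtain ⟨P, hP, hcl⟩ := X5_ex C ht
    refine ⟨P, ?_, hcl⟩
    rintro i ⟨hi, hi' | ⟨l, hl, rfl⟩⟩
    · exact hP hi'
    · exfalso
      have h1 : l = 5 := by
        have h2 : ∀ l : Fin 6, l ∈ ixs 5 → l = 5 := by decide
        exact h2 l hl
      exact (C.pal l).1 hi h1
  have pal3 : ∀ {t : ℝ}, t ∈ X5 T z e a → t ∈ X5 T z e 5 → T (H767.pt z t) = col e a ∪ col e 5 :=
    fun h1 h2 => pal_of C h1 h2 ha
  have pal3' : ∀ {t : ℝ}, t ∈ X5 T z e b → t ∈ X5 T z e c →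
      T (H767.pt z t) = (col e a ∪ col e 5)ᶜ := fun h1 h2 => by rw [pal_of C h1 h2 hbc, hcompl]
  obtain ⟨k1, k2⟩ := one_one_gen C.irr hmin (hl _) h5 hX3 hXz hd hno (ends hua) (ends hua')
    (pal3 hua hu5) (pal3 hua' hu5') (H767.dist_pt z w) (H767.dist_pt z w') (pal3' hwb hwc)
    (pal3' hwb' hwc')
  exact ⟨H349.pt_eq k1, H349.pt_eq k2⟩

/-- **The three cases of the pentagon engine.** -/
theorem cnt5_cases_gen (C : Cn U T z e)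
    (hmin : ∀ z, 4 ≤ (T z).ncard → ∀ s, s ⊆ T z → s ≠ T z →
      ¬ ∀ᶠ w in 𝓝 z, ∃ i ∈ s, w ∈ U i ∨ (w ∈ XX U ∧ i ∈ Pal U w))
    (hl : ∀ X c v x a d, Nd T X c v x → a ∈ X → a ∉ T c → d ∈ Xᶜ → d ∉ T c →
      ∀ y, dist y c = 1 → (T y).ncard ≤ 3)
    {a b c : Fin 6} (ha : a ≠ 5) (hbc : b ≠ c) (hab : ixs b ∪ ixs c = (ixs a ∪ ixs 5)ᶜ) :
    (∀ u, u ∈ X5 T z e a → u ∉ X5 T z e 5) ∨ (∀ u, u ∈ X5 T z e b → u ∉ X5 T z e c) ∨
    ∃ s t : ℝ, (∀ u, u ∈ X5 T z e a → u ∈ X5 T z e 5 → ∃ n : ℤ, u = s + 6 * (n : ℝ)) ∧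
      ∀ u, u ∈ X5 T z e b → u ∈ X5 T z e c → ∃ n : ℤ, u = t + 6 * (n : ℝ) := by
  by_cases h1 : ∀ u, u ∈ X5 T z e a → u ∉ X5 T z e 5
  · exact Or.inl h1
  by_cases h2 : ∀ u, u ∈ X5 T z e b → u ∉ X5 T z e c
  · exact Or.inr (Or.inl h2)
  push Not at h1 h2
  obtain ⟨s, hs, hs'⟩ := h1
  obtain ⟨t, ht, ht'⟩ := h2
  refine Or.inr (Or.inr ⟨s, t, fun u k1 k2 => ?_, fun u k1 k2 => ?_⟩)
  · exact (cnt5_gen C hmin hl ha hbc hab k1 k2 hs hs' ht ht' ht ht').1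
  · exact (cnt5_gen C hmin hl ha hbc hab hs hs' hs hs' k1 k2 ht ht').2

/-- no unit pairs -/
theorem cnt5_cases (C : Cn U T z e)
    (hmin : ∀ z, 4 ≤ (T z).ncard → ∀ s, s ⊆ T z → s ≠ T z →
      ¬ ∀ᶠ w in 𝓝 z, ∃ i ∈ s, w ∈ U i ∨ (w ∈ XX U ∧ i ∈ Pal U w))
    (hu : ∀ z z', 4 ≤ (T z).ncard → 4 ≤ (T z').ncard → dist z z' ≠ 1)
    {a b c : Fin 6} (ha : a ≠ 5) (hbc : b ≠ c) (hab : ixs b ∪ ixs c = (ixs a ∪ ixs 5)ᶜ) :
    (∀ u, u ∈ X5 T z e a → u ∉ X5 T z e 5) ∨ (∀ u, u ∈ X5 T z e b → u ∉ X5 T z e c) ∨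
    ∃ s t : ℝ, (∀ u, u ∈ X5 T z e a → u ∈ X5 T z e 5 → ∃ n : ℤ, u = s + 6 * (n : ℝ)) ∧
      ∀ u, u ∈ X5 T z e b → u ∈ X5 T z e c → ∃ n : ℤ, u = t + 6 * (n : ℝ) := by
  refine cnt5_cases_gen C hmin (fun X c v x a d N _ _ _ _ y hy => ?_) ha hbc hab
  by_contra h1
  exact hu y c (by omega) (N.four C.irr) hy

/-- clean circles of the points with two complementary exact pairs -/
theorem cnt5_casesD (C : Cn U T z e)
    (hmin : ∀ z, 4 ≤ (T z).ncard → ∀ s, s ⊆ T z → s ≠ T z →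
      ¬ ∀ᶠ w in 𝓝 z, ∃ i ∈ s, w ∈ U i ∨ (w ∈ XX U ∧ i ∈ Pal U w))
    (hD : ∀ z v, dist z v = 1 → 4 ≤ (T v).ncard → (∃ a b c d, DPt T z a b c d) → False)
    {a b c : Fin 6} (ha : a ≠ 5) (hbc : b ≠ c) (hab : ixs b ∪ ixs c = (ixs a ∪ ixs 5)ᶜ) :
    (∀ u, u ∈ X5 T z e a → u ∉ X5 T z e 5) ∨ (∀ u, u ∈ X5 T z e b → u ∉ X5 T z e c) ∨
    ∃ s t : ℝ, (∀ u, u ∈ X5 T z e a → u ∈ X5 T z e 5 → ∃ n : ℤ, u = s + 6 * (n : ℝ)) ∧
      ∀ u, u ∈ X5 T z e b → u ∈ X5 T z e c → ∃ n : ℤ, u = t + 6 * (n : ℝ) := by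
  refine cnt5_cases_gen C hmin (fun X c v x a d N ha hac hd hdc y hy => ?_) ha hbc hab
  by_contra h1
  exact hD c y (by rw [dist_comm]; exact hy) (by omega) (dpt_of_light C.irr N ha hac hd hdc)

/-- **The pentagon of 555 gives a clean centre of 122.** -/
theorem exists_cn (h : Irr U T)
    (hmin : ∀ z, 4 ≤ (T z).ncard → ∀ s, s ⊆ T z → s ≠ T z →
      ¬ ∀ᶠ w in 𝓝 z, ∃ i ∈ s, w ∈ U i ∨ (w ∈ XX U ∧ i ∈ Pal U w)) {z : ℂ}
    (h5 : (T z).ncard = 5) (h3 : ∀ y, dist y z = 1 → (T y).ncard ≤ 3) :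
    ∃ e : Fin 6 → Fin 6, Cn U T z e := by
  obtain ⟨c, hc, hTz, hp⟩ := h.penta hmin h5 h3
  obtain ⟨f, hf⟩ : ∃ f, f ∉ T z := by
    by_contra hcon
    push Not at hcon
    have h1 : T z = univ := eq_univ_iff_forall.2 hcon
    rw [h1, Set.ncard_univ, Nat.card_eq_fintype_card, Fintype.card_fin] at h5
    omega
  have hcz : ∀ i, c i ∈ T z := fun i => by rw [hTz]; exact mem_range_self i
  have hcf : ∀ i, c i ≠ f := fun i h1 => hf (h1 ▸ hcz i)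
  refine ⟨![c 0, c 2, c 4, c 1, c 3, f], h, ?_, ?_, h3, ?_⟩
  · intro i j hij
    fin_cases i <;> fin_cases j <;>
      first
      | rfl
      | (exfalso
         first
         | exact absurd (hc hij) (by decide)
         | exact hcf _ hij
         | exact hcf _ hij.symm)
  · intro l
    fin_cases l
    · exact ⟨fun _ => by decide, fun _ => hcz 0⟩
    · exact ⟨fun _ => by decide, fun _ => hcz 2⟩
    · exact ⟨fun _ => by decide, fun _ => hcz 4⟩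
    · exact ⟨fun _ => by decide, fun _ => hcz 1⟩
    · exact ⟨fun _ => by decide, fun _ => hcz 3⟩
    · exact ⟨fun h1 => absurd h1 hf, fun h1 => absurd rfl h1⟩
  · intro q hq h1 h2
    obtain ⟨i, hi⟩ := hp q hq h1 h2
    have cl : ∀ l m n : Fin 6, ixs l = {m, n} → col ![c 0, c 2, c 4, c 1, c 3, f] l =
        {(![c 0, c 2, c 4, c 1, c 3, f] : Fin 6 → Fin 6) m,
          (![c 0, c 2, c 4, c 1, c 3, f] : Fin 6 → Fin 6) n} := by
      intro l m n hl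
      unfold col
      rw [hl]
      simp only [Finset.coe_insert, Finset.coe_singleton, Set.image_insert_eq, Set.image_singleton]
    fin_cases i
    · exact ⟨0, by rw [hi, cl 0 0 1 rfl]; rfl⟩
    · exact ⟨3, by rw [hi, cl 3 3 4 rfl]; rfl⟩
    · exact ⟨1, by rw [hi, cl 1 1 2 rfl]; rfl⟩
    · exact ⟨4, by rw [hi, cl 4 4 0 rfl]; rfl⟩
    · exact ⟨2, by rw [hi, cl 2 2 3 rfl]; rfl⟩

end Vale.Agent.P032.S5.H450
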