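import Vale.Agent.P032.S5.H172.Rhombus
import Vale.Agent.P032.S5.H394.Arc

/-!
# P032: common neighbours of two complementary three coloured points

`Nd T X c v q`: `T v = X`, `T q = Xᶜ`, `|X| = 3`, `c` a common neighbour of `v` and `q`, not their
midpoint.  `c` is light at `v` if a colour `r ∈ X` is missing at `c`, and heavy if `X ⊆ T c`.
No bound on the number of colours of `c`.
-/

open Set Filter Topology Metric

noncomputable section

namespace Vale.Agent.P032.S5.H450

open Vale.Agent.P032.Six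

variable {U : Fin 6 → Set ℂ} {T : ℂ → Set (Fin 6)} {X : Set (Fin 6)} {c v q : ℂ}

/-- the colour `t` is carried by the unit circle about `c` near `v` -/
def Stay (T : ℂ → Set (Fin 6)) (c v : ℂ) (t : Fin 6) : Prop :=
  ∀ᶠ y in 𝓝[sphere c 1] v, t ∈ T y

theorem Stay.line (h : Irr U T) {t : Fin 6} (hc : dist c v = 1) (hs : Stay T c v t) {p : ℂ}
    (hp : dist p v = 1) (ht : t ∈ T p) : p = c ∨ p + c = 2 * v := by
  refine h.mx.partner_line (u := c) (p := v) (t := t) (by rw [dist_comm]; exact hc)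
    (hs.mono fun y hy => h.sub y hy) (by rw [dist_comm]; exact hp) (h.sub _ ht)

/-- `c` is a common neighbour of `v` and `q`, `T v = X`, `T q = Xᶜ`, not the midpoint -/
structure Nd (T : ℂ → Set (Fin 6)) (X : Set (Fin 6)) (c v q : ℂ) : Prop where
  hX : X.ncard = 3
  dv : dist c v = 1
  dq : dist c q = 1
  Tv : T v = X
  Tq : T q = Xᶜ
  op : v + q ≠ 2 * c

theorem ncard_compl_three' {X : Set (Fin 6)} (hX : X.ncard = 3) : Xᶜ.ncard = 3 := by
  have := Set.ncard_add_ncard_compl X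
  rw [Nat.card_eq_fintype_card, Fintype.card_fin] at this
  omega

namespace Nd

theorem swap (N : Nd T X c v q) : Nd T Xᶜ c q v where
  hX := ncard_compl_three' N.hX
  dv := N.dq
  dq := N.dv
  Tv := N.Tq
  Tq := by rw [compl_compl]; exact N.Tv
  op := by rw [add_comm]; exact N.op

theorem hXc (N : Nd T X c v q) : Xᶜ.ncard = 3 := ncard_compl_three' N.hX

theorem cv (N : Nd T X c v q) : (T v).ncard ≤ 3 := by rw [N.Tv, N.hX]

theorem cq (N : Nd T X c v q) : (T q).ncard ≤ 3 := by rw [N.Tq, N.hXc]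

theorem cov (N : Nd T X c v q) (i : Fin 6) : i ∈ T v ∨ i ∈ T q := by
  rw [N.Tv, N.Tq]; exact em _

theorem ne (N : Nd T X c v q) : v ≠ q := by
  rintro rfl
  have h1 : X = Xᶜ := N.Tv.symm.trans N.Tq
  obtain ⟨i, hi⟩ : X.Nonempty := Set.nonempty_of_ncard_ne_zero (by rw [N.hX]; norm_num)
  have h2 : i ∈ Xᶜ := h1 ▸ hi
  exact h2 hi

/-- the fourth vertex of the rhombus -/
theorem other (N : Nd T X c v q) : Nd T X (v + q - c) v q where
  hX := N.hX
  dv := by
    rw [dist_eq_norm, show v + q - c - v = q - c by ring, ← dist_eq_norm, dist_comm]; exact N.dq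
  dq := by
    rw [dist_eq_norm, show v + q - c - q = v - c by ring, ← dist_eq_norm, dist_comm]; exact N.dv
  Tv := N.Tv
  Tq := N.Tq
  op := fun h => N.op (by linear_combination -h)

theorem ne_other (N : Nd T X c v q) : v + q - c ≠ c := fun h => N.op (by linear_combination h)

theorem off_other (N : Nd T X c v q) : v + q - c + c ≠ 2 * v := fun h =>
  N.ne (by linear_combination -h)

/-- two colours of `X` at `c`, one of them not `s` -/
theorem five (h : Irr U T) (N : Nd T X c v q) (s : Fin 6) : ∃ t ∈ T c, t ∈ X ∧ t ≠ s := by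
  obtain ⟨t, h1, h2, h3⟩ := h.five (u := v) (u' := q) (q := c) N.cq N.cov N.ne N.dv N.dq N.op s
  exact ⟨t, h1, N.Tv ▸ h2, h3⟩

/-- a light centre has the two other colours -/
theorem rest (h : Irr U T) (N : Nd T X c v q) {r : Fin 6} (hr : r ∈ X) (hrc : r ∉ T c) :
    X \ {r} ⊆ T c := by
  rintro s ⟨hs, hsr⟩
  by_contra hsc
  obtain ⟨t1, a1, a2, -⟩ := N.five h r
  obtain ⟨t2, b1, b2, b3⟩ := N.five h t1
  have hne : s ≠ r := hsr
  have h1 : t1 ≠ r := fun h5 => hrc (h5 ▸ a1)
  have h2 : t2 ≠ r := fun h5 => hrc (h5 ▸ b1)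
  have h3 : t1 ≠ s := fun h5 => hsc (h5 ▸ a1)
  have h4 : t2 ≠ s := fun h5 => hsc (h5 ▸ b1)
  have hsub : ({r, s, t1, t2} : Set (Fin 6)) ⊆ X := by
    rintro m (rfl | rfl | rfl | rfl) <;> assumption
  have h5 := Set.ncard_le_ncard hsub (Set.toFinite _)
  rw [N.hX, Set.ncard_insert_of_notMem (by simp [hne.symm, h1.symm, h2.symm]) (Set.toFinite _),
    Set.ncard_insert_of_notMem (by simp [h3.symm, h4.symm]) (Set.toFinite _),
    Set.ncard_pair b3.symm] at h5
  omega

theorem inter_eq (h : Irr U T) (N : Nd T X c v q) {r : Fin 6} (hr : r ∈ X) (hrc : r ∉ T c) :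
    T c ∩ T v = X \ {r} := by
  rw [N.Tv]
  refine Subset.antisymm (fun i hi => ⟨hi.2, fun h5 => hrc ?_⟩) fun i hi =>
    ⟨N.rest h hr hrc hi, hi.1⟩
  rw [mem_singleton_iff] at h5
  exact h5 ▸ hi.1

theorem two_sdiff (N : Nd T X c v q) {r : Fin 6} (hr : r ∈ X) : (X \ {r}).ncard = 2 := by
  rw [Set.ncard_sdiff_singleton_of_mem hr, N.hX]

theorem insert_eq (N : Nd T X c v q) {r : Fin 6} (hr : r ∈ X) : T v = insert r (X \ {r}) := by
  rw [N.Tv, Set.insert_sdiff_singleton, Set.insert_eq_of_mem hr]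

/-- exact arcs accumulate at a light centre -/
theorem acc (h : Irr U T) (N : Nd T X c v q) {r : Fin 6} (hr : r ∈ X) (hrc : r ∉ T c) :
    Acc T c (X \ {r}) v := by
  refine h.rh_arc N.cq N.cov N.ne N.dv N.dq N.op (N.insert_eq hr) (by simp)
    (N.two_sdiff hr).le (Set.nonempty_of_ncard_ne_zero (by rw [N.two_sdiff hr]; norm_num))
    (N.inter_eq h hr hrc)

/-- the pair of a light centre is used by no other centre -/
theorem strip (h : Irr U T) (N : Nd T X c v q) {r : Fin 6} (hr : r ∈ X) (hrc : r ∉ T c) {p : ℂ}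
    (hp : p ≠ c) : ¬ Acc T p (X \ {r}) v := by
  refine h.strip N.cq N.ne N.dv N.dq N.op (fun i hi => ?_) (fun h5 => ?_) hp
  · by_cases h1 : i ∈ X
    · refine Or.inl ⟨h1, fun h5 => hrc ?_⟩
      rw [mem_singleton_iff] at h5
      exact h5 ▸ hi
    · exact Or.inr (by rw [N.Tq]; exact h1)
  · rw [N.Tv] at h5
    have : r ∈ X \ {r} := h5 ▸ hr
    exact this.2 rfl

/-- one light centre for every missing colour -/
theorem unique (h : Irr U T) (N : Nd T X c v q) {c' q' : ℂ} (N' : Nd T X c' v q') {r : Fin 6}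
    (hr : r ∈ X) (hrc : r ∉ T c) (hrc' : r ∉ T c') : c = c' := by
  by_contra hne
  exact N'.strip h hr hrc' hne (N.acc h hr hrc)

/-- the missing colour stays at every other centre with the two other colours -/
theorem stay (h : Irr U T) (N : Nd T X c v q) {r : Fin 6} (hr : r ∈ X) (hrc : r ∉ T c) {p : ℂ}
    (hp : p ≠ c) (hsub : X \ {r} ⊆ T p) : Stay T p v r := by
  rcases h.acc_or (q := p) (u := v) (r := r) (N.insert_eq hr).subset hsub
    (N.two_sdiff hr).le with h1 | h1
  · exact absurd h1 (N.strip h hr hrc hp)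
  · exact h1

/-- a light and a heavy centre, off the line: the third centre is on the line of the heavy one -/
theorem heavy_line (h : Irr U T) (N : Nd T X c v q) {r : Fin 6} (hr : r ∈ X) (hrc : r ∉ T c)
    {p p' : ℂ} (hp : dist p v = 1) (hpc : p ≠ c) (hXp : X ⊆ T p) (hp' : dist p' v = 1)
    (hrp' : r ∈ T p') : p' = p ∨ p' + p = 2 * v :=
  (N.stay h hr hrc hpc (sdiff_subset.trans hXp)).line h hp hp' hrp'

/-- at least four colours -/
theorem four (h : Irr U T) (N : Nd T X c v q) : 4 ≤ (T c).ncard := by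
  obtain ⟨s1, a1, a2, -⟩ := N.five h 0
  obtain ⟨s2, b1, b2, b3⟩ := N.five h s1
  obtain ⟨t1, c1, c2, -⟩ := N.swap.five h 0
  obtain ⟨t2, d1, d2, d3⟩ := N.swap.five h t1
  have hd : ∀ {s t : Fin 6}, s ∈ X → t ∈ Xᶜ → s ≠ t := by
    rintro s t hs ht rfl
    exact ht hs
  have hs : ({s1, s2, t1, t2} : Set (Fin 6)) ⊆ T c := by
    rintro m (rfl | rfl | rfl | rfl) <;> assumption
  have h5 := Set.ncard_le_ncard hs (Set.toFinite _)
  rw [Set.ncard_insert_of_notMem (by simp [b3.symm, hd a2 c2, hd a2 d2])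
    (Set.toFinite _), Set.ncard_insert_of_notMem (by simp [hd b2 c2, hd b2 d2])
    (Set.toFinite _), Set.ncard_pair d3.symm] at h5
  exact h5

end Nd

end Vale.Agent.P032.S5.H450
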