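import Vale.Agent.P032.S5.H450.Branch
import Vale.Agent.P032.S5.H360.Degree

/-!
# P032: the rule (1,1) of a five coloured centre

`z` with five colours, `Xᶜ ⊆ T z`, `d ∈ Xᶜ`, the pair `Xᶜ \ {d}` not exact on `S(z)`.  If `S(z)` has
an `X`-end and a point with palette `Xᶜ`, then it has exactly one of each.
-/

open Set Filter Topology Metric

noncomputable section

namespace Vale.Agent.P032.S5.H450

open Vale.Agent.P032.Six

variable {U : Fin 6 → Set ℂ} {T : ℂ → Set (Fin 6)} {X : Set (Fin 6)} {z v q : ℂ} {d f : Fin 6}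

theorem closure_of_acc {c p : ℂ} {P : Set (Fin 6)} (h : Acc T c P p) :
    p ∈ closure (H767.Ex T c P) := by
  rw [mem_closure_iff_nhds]
  intro V hV
  obtain ⟨y, hy, h1, h2⟩ := h V hV
  exact ⟨y, hy, h1, h2⟩

namespace Nd

/-- the colour which stays is not a colour of the second centre -/
theorem miss (h : Irr U T) (N : Nd T X z v q) (st : Stay T z q d) : d ∉ T (v + q - z) := by
  intro hd
  rcases st.line h N.dq N.other.dq hd with h1 | h1
  · exact N.ne_other h1
  · exact N.ne (by linear_combination h1)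

/-- a centre with another node is not antipodal -/
theorem anti_x (h : Irr U T) (N : Nd T X z v q) (hd : d ∈ Xᶜ) (hdz : d ∉ T z) {x : ℂ}
    (hx : dist x z = 1) (hTx : T x = X) : x + q ≠ 2 * z := by
  intro h1
  refine H767.anti h (z := z) (y := x) hx (by rw [hTx, N.hX]) (P := Xᶜ \ {d}) (fun i hi => ?_) ?_
  · by_cases h2 : i ∈ X
    · exact Or.inl (by rw [hTx]; exact h2)
    · refine Or.inr ⟨h2, fun h3 => hdz ?_⟩
      rw [mem_singleton_iff] at h3
      exact h3 ▸ hi
  · have e : 2 * z - x = q := by linear_combination -h1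
    rw [e]
    exact closure_of_acc (N.swap.acc h hd hdz)

theorem anti_y (h : Irr U T) (N : Nd T X z v q) {a : Fin 6} (ha : a ∈ X) (haz : a ∉ T z) {y : ℂ}
    (hy : dist y z = 1) (hTy : T y = Xᶜ) : v + y ≠ 2 * z := by
  have := N.swap.anti_x h (d := a) (x := y) (by rw [compl_compl]; exact ha) haz hy hTy
  rwa [add_comm]

/-- **`X`-points of the second centre** -/
theorem xpts (h : Irr U T) (N : Nd T X z v q) (hf : f ∈ X) (hfz : f ∉ T z) (hXz : Xᶜ ⊆ T z)
    (hd : d ∈ Xᶜ) (st : Stay T z q d) {x : ℂ} (hx : dist x (v + q - z) = 1) (hTx : T x = X) :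
    x = v := by
  set w := v + q - z with hw
  have Nw : Nd T X w v q := N.other
  have hdw : d ∉ T w := N.miss h st
  have hzw : z ≠ w := fun h1 => N.ne_other (by rw [← hw]; exact h1.symm)
  -- the centre
  have Nx : Nd T X w x q :=
    ⟨N.hX, by rw [dist_comm]; exact hx, Nw.dq, hTx, N.Tq, Nw.anti_x h hd hdw hx hTx⟩
  have Np := Nx.other
  set p := x + q - w with hp
  have hpw : p ≠ w := Nx.ne_other
  by_contra hxv
  have hpz : p ≠ z := fun h1 => hxv (by linear_combination h1 - hp + hw)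
  have hdp : d ∈ T p := by
    by_contra h1
    exact hpw (Np.swap.unique h Nw.swap hd h1 hdw)
  have hoff : ∀ {s : Fin 6}, s ∈ T w → ¬ Stay T z q s := by
    intro s hs h1
    rcases h1.line h N.dq Nw.dq hs with h2 | h2
    · exact hzw h2.symm
    · exact N.ne (by linear_combination h2 - hw)
  by_cases hheavy : Xᶜ ⊆ T p
  · rcases Nw.swap.heavy_line h hd hdw Np.dq hpw hheavy (p' := z) N.dq (hXz hd) with h1 | h1
    · exact hpz h1.symm
    · -- tangent case
      refine Nw.swap.no_tangent h hd hdw ?_ N.dq h1 hXz hheavy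
      -- the point `q` is isolated
      have hlim : Tendsto (fun y : ℂ => v + y - w) (𝓝 q) (𝓝 z) := by
        have hc : Continuous fun y : ℂ => v + y - w := by fun_prop
        have h2 := hc.tendsto q
        have e : v + q - w = z := by rw [hw]; ring
        rwa [e] at h2
      have h2 := hlim.eventually (h.nhd z)
      have h3 : ∀ᶠ y in 𝓝 q, v + y ≠ 2 * w := by
        have hc : Continuous fun y : ℂ => v + y := by fun_prop
        exact hc.continuousAt.eventually (isOpen_ne.mem_nhds Nw.op)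
      filter_upwards [mem_nhdsWithin_of_mem_nhds h2, mem_nhdsWithin_of_mem_nhds h3,
        self_mem_nhdsWithin] with y h4 h5 h6 h7
      have Ny : Nd T X w v y :=
        ⟨N.hX, Nw.dv, by rw [dist_comm]; exact h6, N.Tv, h7, h5⟩
      have h8 := Ny.other.unique h N hf (fun h9 => hfz (h4 h9)) hfz
      linear_combination h8 + hw
  · obtain ⟨s, hs, hsp⟩ : ∃ s ∈ Xᶜ, s ∉ T p := by
      by_contra hcon
      push Not at hcon
      exact hheavy hcon
    have hsd : s ≠ d := fun h1 => hsp (h1 ▸ hdp)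
    have h1 := Np.swap.stay h hs hsp (p := z) (Ne.symm hpz) (sdiff_subset.trans hXz)
    exact hoff (Nw.swap.rest h hd hdw ⟨hs, hsd⟩) h1

/-- **`Xᶜ`-points of the second centre** -/
theorem ypts (h : Irr U T) (N : Nd T X z v q) {w' q' : ℂ} (N' : Nd T X w' v q') {a b : Fin 6}
    (hX3 : ∀ i ∈ X, i = f ∨ i = a ∨ i = b) (hf : f ∈ X) (ha : a ∈ X) (hb : b ∈ X)
    (hfz : f ∉ T z) (haw : a ∉ T (v + q - z)) (hbw' : b ∉ T w') (hfw : f ∈ T (v + q - z))
    (hfw' : f ∈ T w') (hne : v + q - z ≠ w') {y : ℂ}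
    (hy : dist y (v + q - z) = 1) (hTy : T y = Xᶜ) : y = q ∨ y = v + q - z + w' - v := by
  set w := v + q - z with hw
  have Nw : Nd T X w v q := N.other
  have Ny : Nd T X w v y :=
    ⟨N.hX, Nw.dv, by rw [dist_comm]; exact hy, N.Tv, hTy, Nw.anti_y h ha haw hy hTy⟩
  have Np := Ny.other
  set p := v + y - w with hp
  have hpw : p ≠ w := Ny.ne_other
  by_cases hpz : p = z
  · left; linear_combination hpz - hp + hw
  by_cases hpw' : p = w'
  · right; linear_combination hpw' - hp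
  exfalso
  have h1 : f ∈ T p := by
    by_contra h1
    exact hpz (Np.unique h N hf h1 hfz)
  have h2 : a ∈ T p := by
    by_contra h2
    exact hpw (Np.unique h Nw ha h2 haw)
  have h3 : b ∈ T p := by
    by_contra h3
    exact hpw' (Np.unique h N' hb h3 hbw')
  have hheavy : X ⊆ T p := by
    intro i hi
    rcases hX3 i hi with rfl | rfl | rfl <;> assumption
  rcases N.heavy_line h hf hfz Np.dv hpz hheavy (p' := w') N'.dv hfw' with h4 | h4
  · exact hpw' h4.symm
  rcases N.heavy_line h hf hfz Np.dv hpz hheavy (p' := w) Nw.dv hfw with h5 | h5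
  · exact hpw h5.symm
  · exact hne (by linear_combination h5 - h4)

end Nd

/-! ### ends and the lemmas L2, L3 -/

theorem en_of_cln {c p : ℂ} (h4 : (T c).ncard = 4) (h2 : (T c ∩ X).ncard = 2)
    (hp : dist p c = 1) (hT : T p = X) (hc : H349.Cln T c p) : En T X c p := by
  obtain ⟨o, ε, ho, hε, h1, -⟩ := hc
  refine ⟨hT, h4, h2, hp, o, ε, ho, hε, fun t ht => ?_⟩
  rw [h1 t ht, hT]

/-- the exact pairs of a four coloured centre with a light node -/
theorem pairs_of (h : Irr U T)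
    (hmin : ∀ z, 4 ≤ (T z).ncard → ∀ s, s ⊆ T z → s ≠ T z →
      ¬ ∀ᶠ w in 𝓝 z, ∃ i ∈ s, w ∈ U i ∨ (w ∈ XX U ∧ i ∈ Pal U w))
    {c p x : ℂ} {a : Fin 6} (N : Nd T X c p x) (ha : a ∈ X) (hac : a ∉ T c)
    (h4 : (T c).ncard = 4) {y : ℂ} (hy : dist y c = 1)
    (hyc : ∀ᶠ q in 𝓝[sphere c 1] y, T q = T y) (hsub : T y ⊆ T c) :
    T y = T c ∩ X ∨ T y = T c ∩ Xᶜ := by
  have hcX : c ∈ XX U := by
    obtain ⟨i, hi⟩ := h.ne y
    exact h.mem_XX (by rw [dist_comm]; exact hy) (hsub hi) (h.sub y hi)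
  have h2 : 2 ≤ (T c \ T y).ncard :=
    h.gap_two hcX hy (hyc.mono fun q hq i hi => h.sub q (hq ▸ hi))
  have h3 := Set.ncard_sdiff hsub (Set.toFinite _)
  have h5 : 2 ≤ (T y).ncard := by
    by_contra hcon
    obtain ⟨i, hi⟩ := h.ne y
    have h6 : T y ⊆ {i} := fun m hm =>
      (Set.ncard_le_one (Set.toFinite _)).1 (by omega) m hm i hi
    exact h.mx.notMem' (h.mem_of_single h6) hy (h.sub c (hsub hi))
  have h6 : (T y).ncard = 2 := by omega
  have hcap : T c ∩ X = X \ {a} := by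
    have := N.inter_eq h ha hac
    rwa [N.Tv] at this
  -- a point with the pair of the node
  obtain ⟨g, -, hg, hgP⟩ := N.acc h ha hac univ univ_mem
  have hgT : T g = X \ {a} := hgP.self_of_nhdsWithin (show g ∈ sphere c 1 from hg)
  rcases h.pairs_disjoint hmin h4 hy hg hsub (by rw [hgT]; exact N.rest h ha hac) h6
    (by rw [hgT]; exact N.two_sdiff ha) with h7 | h7
  · left; rw [h7, hgT, hcap]
  · right
    refine Set.eq_of_subset_of_ncard_le ?_ ?_ (Set.toFinite _)
    · intro i hi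
      refine ⟨hsub hi, fun h8 => ?_⟩
      rw [hgT, ← hcap] at h7
      exact Set.disjoint_left.1 h7 hi ⟨hsub hi, h8⟩
    · have h8 := Set.ncard_inter_add_ncard_sdiff_eq_ncard (T c) X (Set.toFinite _)
      have h9 : T c \ X = T c ∩ Xᶜ := rfl
      have h10 := N.two_sdiff ha
      rw [hcap, h9] at h8
      omega

/-- **L2 and L3 for the second centre**: `w` light at `v` and `q`, `X`-points of `S(w)` only `v`,
`Xᶜ`-points only `q` and `s`. -/
theorem L3_node (h : Irr U T)
    (hmin : ∀ z, 4 ≤ (T z).ncard → ∀ s, s ⊆ T z → s ≠ T z →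
      ¬ ∀ᶠ w in 𝓝 z, ∃ i ∈ s, w ∈ U i ∨ (w ∈ XX U ∧ i ∈ Pal U w))
    {w s : ℂ} {a : Fin 6} (N : Nd T X w v q) (h3 : ∀ y, dist y w = 1 → (T y).ncard ≤ 3)
    (ha : a ∈ X) (haw : a ∉ T w) (hd : d ∈ Xᶜ) (hdw : d ∉ T w)
    (hx : ∀ x, dist x w = 1 → T x = X → x = v)
    (hy : ∀ y, dist y w = 1 → T y = Xᶜ → y = q ∨ y = s) :
    ∃ α β γ : ℝ, 0 < α ∧ 0 < β ∧ 0 < γ ∧
      (α : ℂ) * (v - w) + (β : ℂ) * (q - w) + (γ : ℂ) * (s - w) = 0 := by
  have hcapX : T w ∩ X = X \ {a} := by
    have := N.inter_eq h ha haw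
    rwa [N.Tv] at this
  have hcapY : T w ∩ Xᶜ = Xᶜ \ {d} := by
    have := N.swap.inter_eq h hd hdw
    rwa [N.Tq] at this
  have k1 : (T w ∩ X).ncard = 2 := by rw [hcapX]; exact N.two_sdiff ha
  have k2 : (T w ∩ Xᶜ).ncard = 2 := by rw [hcapY]; exact N.swap.two_sdiff hd
  have h4 : (T w).ncard = 4 := by
    have h8 := Set.ncard_inter_add_ncard_sdiff_eq_ncard (T w) X (Set.toFinite _)
    have h9 : T w \ X = T w ∩ Xᶜ := rfl
    rw [h9] at h8
    omega
  have hpairs : ∀ y, dist y w = 1 → (∀ᶠ q in 𝓝[sphere w 1] y, T q = T y) → T y ⊆ T w →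
      T y = T w ∩ X ∨ T y = T w ∩ Xᶜ := fun y h5 h6 h7 =>
    pairs_of h hmin N ha haw h4 h5 h6 h7
  have clv : H349.Cln T w v := by
    refine N.cln h ha haw ?_
    filter_upwards [self_mem_nhdsWithin] with y h5 h6
    exact hx y h5 h6
  have cly : ∀ y, dist y w = 1 → T y = Xᶜ → H349.Cln T w y := by
    intro y hyw hTy
    have Ny : Nd T X w v y :=
      ⟨N.hX, N.dv, by rw [dist_comm]; exact hyw, N.Tv, hTy, N.anti_y h ha haw hyw hTy⟩
    refine Ny.swap.cln h hd hdw ?_
    have hfin : ∀ᶠ x in 𝓝 y, x ∈ ({q, s} : Set ℂ) → x = y := by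
      have h5 : ({q, s} : Set ℂ) \ {y} ⊆ {y}ᶜ := fun x hx => hx.2
      have h6 : (({q, s} : Set ℂ) \ {y})ᶜ ∈ 𝓝 y := by
        refine IsOpen.mem_nhds ?_ (fun h7 => h7.2 rfl)
        exact (Set.toFinite _).isClosed.isOpen_compl
      filter_upwards [h6] with x h7 h8
      by_contra h9
      exact h7 ⟨h8, h9⟩
    filter_upwards [mem_nhdsWithin_of_mem_nhds hfin, self_mem_nhdsWithin] with x h5 h6 h7
    exact h5 (hy x h6 h7)
  have hcl : ∀ y, dist y w = 1 → T y = X ∨ T y = Xᶜ → H349.Cln T w y := by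
    rintro y h5 (h6 | h6)
    · rw [hx y h5 h6]; exact clv
    · exact cly y h5 h6
  have hv : En T X w v := en_of_cln h4 k1 N.dvc N.Tv clv
  have hq : En T Xᶜ w q := en_of_cln h4 k2 N.swap.dvc N.Tq (cly q N.swap.dvc N.Tq)
  rcases H349.L2_of h N.hX h3 hpairs hcl hv hq with ⟨v', h5, h6⟩ | ⟨q', h5, h6⟩
  · exact absurd (hx v' h6.2.2.2.1 h6.1) h5
  · have h7 : q' = s := by
      rcases hy q' h6.2.2.2.1 h6.1 with h7 | h7
      · exact absurd h7 h5
      · exact h7
    subst h7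
    exact H349.L3_of h N.hX h3 hpairs hcl hv hq h6 (Ne.symm h5)
      (fun v' h8 => hx v' h8.2.2.2.1 h8.1) fun p h8 => hy p h8.2.2.2.1 h8.1

/-- **The rule (1,1)**, for ends of exact arcs whose palette contains the colours of `T z` in `X`; the
circles of the light centres are clean. -/
theorem one_one_gen (h : Irr U T)
    (hmin : ∀ z, 4 ≤ (T z).ncard → ∀ s, s ⊆ T z → s ≠ T z →
      ¬ ∀ᶠ w in 𝓝 z, ∃ i ∈ s, w ∈ U i ∨ (w ∈ XX U ∧ i ∈ Pal U w))
    (hl : ∀ c v x a d, Nd T X c v x → a ∈ X → a ∉ T c → d ∈ Xᶜ → d ∉ T c →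
      ∀ y, dist y c = 1 → (T y).ncard ≤ 3)
    (h5 : (T z).ncard = 5) (hX : X.ncard = 3) (hXz : Xᶜ ⊆ T z) (hd : d ∈ Xᶜ)
    (hno : ∀ y, dist y z = 1 → T y ≠ Xᶜ \ {d}) {v v' q q' : ℂ}
    (hv : ∃ P, T z ∩ X ⊆ P ∧ v ∈ closure (H767.Ex T z P))
    (hv' : ∃ P, T z ∩ X ⊆ P ∧ v' ∈ closure (H767.Ex T z P))
    (hTv : T v = X) (hTv' : T v' = X) (hq : dist q z = 1) (hq' : dist q' z = 1)
    (hTq : T q = Xᶜ) (hTq' : T q' = Xᶜ) : v = v' ∧ q = q' := by
  have hXc : Xᶜ.ncard = 3 := ncard_compl_three' hX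
  -- the missing colour
  obtain ⟨f, hf, hfz⟩ : ∃ f ∈ X, f ∉ T z := by
    by_contra hcon
    push Not at hcon
    have h1 : T z = univ := by
      ext i
      simp only [mem_univ, iff_true]
      by_cases hi : i ∈ X
      · exact hcon i hi
      · exact hXz hi
    rw [h1, Set.ncard_univ, Nat.card_eq_fintype_card, Fintype.card_fin] at h5
    omega
  -- nodes
  have node : ∀ {x y : ℂ}, (∃ P, T z ∩ X ⊆ P ∧ x ∈ closure (H767.Ex T z P)) → T x = X →
      dist y z = 1 → T y = Xᶜ → Nd T X z x y := by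
    rintro x y ⟨P, hP, hx⟩ hTx hy hTy
    refine ⟨hX, by rw [dist_comm]; exact H767.dist_of_closure hx, by rw [dist_comm]; exact hy,
      hTx, hTy, fun h1 => ?_⟩
    refine H767.anti h (z := z) (y := y) hy (by rw [hTy, hXc]) (P := P) (fun i hi => ?_) ?_
    · by_cases h2 : i ∈ X
      · exact Or.inr (hP ⟨hi, h2⟩)
      · exact Or.inl (by rw [hTy]; exact h2)
    · have e : 2 * z - y = x := by linear_combination -h1
      rw [e]; exact hx
  have stay : ∀ {y : ℂ}, dist y z = 1 → T y = Xᶜ → Stay T z y d := by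
    intro y hy hTy
    unfold Stay
    filter_upwards [mem_nhdsWithin_of_mem_nhds (h.nhd y), self_mem_nhdsWithin] with x h1 h2
    by_contra h3
    have h4 : T x ⊆ Xᶜ \ {d} := fun i hi => ⟨hTy ▸ h1 hi, fun h6 => h3 (by
      rw [mem_singleton_iff] at h6; exact h6 ▸ hi)⟩
    have h6 : (Xᶜ \ {d} : Set (Fin 6)).ncard = 2 := by
      rw [Set.ncard_sdiff_singleton_of_mem hd, hXc]
    have h7 := h.pair_open (z := z) h6 (sdiff_subset.trans hXz) h4
    exact hno x h2 (h7.self_of_nhdsWithin h2)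
  have N := node hv hTv hq hTq
  have st := stay hq hTq
  constructor
  · -- one `X`-end
    have N' := node hv' hTv' hq hTq
    have h1 := N.other.swap.unique h N'.other.swap hd (N.miss h st) (N'.miss h st)
    linear_combination h1
  · -- one `Xᶜ`-point
    by_contra hqq
    have N' := node hv hTv hq' hTq'
    have st' := stay hq' hTq'
    set w := v + q - z with hw
    set w' := v + q' - z with hw'
    have Nw : Nd T X w v q := N.other
    have Nw' : Nd T X w' v q' := N'.other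
    have hdw : d ∉ T w := N.miss h st
    have hdw' : d ∉ T w' := N'.miss h st'
    have hwz : w ≠ z := N.ne_other
    have hwz' : w' ≠ z := N'.ne_other
    have hww' : w ≠ w' := fun h1 => hqq (by linear_combination h1 - hw + hw')
    have hfw : f ∈ T w := by
      by_contra h1
      exact hwz (Nw.unique h N hf h1 hfz)
    have hfw' : f ∈ T w' := by
      by_contra h1
      exact hwz' (Nw'.unique h N' hf h1 hfz)
    -- isolated `X`-points on `S(z)`
    have iso : ∀ᶠ y in 𝓝[sphere z 1] v, T y = X → y = v := by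
      have h3 : ∀ᶠ y in 𝓝 v, y + q ≠ 2 * z := by
        have hc : Continuous fun y : ℂ => y + q := by fun_prop
        exact hc.continuousAt.eventually (isOpen_ne.mem_nhds N.op)
      filter_upwards [mem_nhdsWithin_of_mem_nhds h3, self_mem_nhdsWithin] with y h4 h6 h7
      have Ny : Nd T X z y q :=
        ⟨hX, by rw [dist_comm]; exact h6, N.dq, h7, hTq, h4⟩
      have h8 := Ny.other.swap.unique h Nw.swap hd (Ny.miss h st) hdw
      linear_combination h8 + hw
    -- a heavy and a light centre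
    have mixed : ∀ {c c' : ℂ} {b : Fin 6} {x : ℂ}, Nd T X c' v x → X ⊆ T c → dist c v = 1 →
        b ∈ X → b ∉ T c' → b ∈ T z → z ≠ c → z + c ≠ 2 * v → c ≠ c' → False := by
      intro c c' b x Nc' hc hcv hb hbc' hbz h1 h2 h3
      rcases Nc'.heavy_line h hb hbc' hcv h3 hc (p' := z) N.dv hbz with h4 | h4
      · exact h1 h4
      · exact h2 h4
    have hin : ∀ {b : Fin 6}, b ∈ X → b ≠ f → b ∈ T z := fun hb hbf =>
      N.rest h hf hfz ⟨hb, hbf⟩
    by_cases hW : X ⊆ T w
    · by_cases hW' : X ⊆ T w'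
      · rcases N.heavy_line h hf hfz Nw.dv hwz hW (p' := w') Nw'.dv hfw' with h1 | h1
        · exact hww' h1.symm
        · exact N.no_tangent h hf hfz iso Nw'.dv h1 hW' hW
      · obtain ⟨b, hb, hbw'⟩ : ∃ b ∈ X, b ∉ T w' := by
          by_contra hcon
          push Not at hcon
          exact hW' hcon
        have hbf : b ≠ f := fun h1 => hbw' (h1 ▸ hfw')
        exact mixed Nw' hW Nw.dv hb hbw' (hin hb hbf) hwz.symm
          (fun h1 => N.ne (by linear_combination hw - h1)) hww'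
    · obtain ⟨a, ha, haw⟩ : ∃ a ∈ X, a ∉ T w := by
        by_contra hcon
        push Not at hcon
        exact hW hcon
      have haf : a ≠ f := fun h1 => haw (h1 ▸ hfw)
      by_cases hW' : X ⊆ T w'
      · exact mixed Nw hW' Nw'.dv ha haw (hin ha haf) hwz'.symm
          (fun h1 => N'.ne (by linear_combination hw' - h1)) hww'.symm
      · obtain ⟨b, hb, hbw'⟩ : ∃ b ∈ X, b ∉ T w' := by
          by_contra hcon
          push Not at hcon
          exact hW' hcon
        have hbf : b ≠ f := fun h1 => hbw' (h1 ▸ hfw')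
        have hab : a ≠ b := fun h1 => hww' (Nw.unique h Nw' ha haw (h1 ▸ hbw'))
        have hX3 : ∀ i ∈ X, i = f ∨ i = a ∨ i = b := by
          intro i hi
          by_contra hcon
          push Not at hcon
          have h1 : ({i, f, a, b} : Set (Fin 6)) ⊆ X := by
            rintro m (rfl | rfl | rfl | rfl) <;> assumption
          have h2 := Set.ncard_le_ncard h1 (Set.toFinite _)
          rw [Set.ncard_insert_of_notMem (by simp [hcon.1, hcon.2.1, hcon.2.2]) (Set.toFinite _),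
            Set.ncard_insert_of_notMem (by simp [haf.symm, hbf.symm]) (Set.toFinite _),
            Set.ncard_pair hab] at h2
          omega
        obtain ⟨α, β, γ, hα, hβ, hγ, e1⟩ := L3_node h hmin Nw (s := w + w' - v)
          (hl w v q a d Nw ha haw hd hdw) ha haw hd hdw (fun x h1 h2 => N.xpts h hf hfz hXz hd st h1 h2)
          (fun y h1 h2 => N.ypts h Nw' hX3 hf ha hb hfz haw hbw' hfw hfw' hww' h1 h2)
        obtain ⟨α', β', γ', hα', hβ', hγ', e2⟩ := L3_node h hmin Nw' (s := w' + w - v)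
          (hl w' v q' b d Nw' hb hbw' hd hdw') hb hbw' hd hdw' (fun x h1 h2 => N'.xpts h hf hfz hXz hd st' h1 h2)
          (fun y h1 h2 => N'.ypts h Nw (fun i hi => (hX3 i hi).imp_right Or.symm) hf hb ha hfz
            hbw' haw hfw' hfw hww'.symm h1 h2)
        have hcr : cr (v - w) (v - z) ≠ 0 := cr_ne Nw.dvc N.dvc hwz
          (fun h1 => N.ne (by linear_combination hw - h1))
        have a1 := congrArg Complex.re e1
        have a2 := congrArg Complex.im e1
        have b1 := congrArg Complex.re e2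
        have b2 := congrArg Complex.im e2
        have hq1 : q = w + z - v := by linear_combination -hw
        have hq2 : q' = w' + z - v := by linear_combination -hw'
        rw [hq1] at a1 a2
        rw [hq2] at b1 b2
        simp only [Complex.add_re, Complex.mul_re, Complex.sub_re, Complex.ofReal_re,
          Complex.ofReal_im, zero_mul, sub_zero, Complex.zero_re, Complex.add_im, Complex.mul_im,
          Complex.sub_im, add_zero, Complex.zero_im] at a1 a2 b1 b2
        have key : (α' * β + γ * β') * cr (v - w) (v - z) = 0 := by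
          unfold cr
          simp only [Complex.sub_re, Complex.sub_im]
          linear_combination (-α' * (v.re - w.re)) * a2 + (α' * (v.im - w.im)) * a1 +
            (-γ * (v.re - w.re)) * b2 + (γ * (v.im - w.im)) * b1
        rcases mul_eq_zero.1 key with h1 | h1
        · have : 0 < α' * β + γ * β' := by positivity
          linarith
        · exact hcr h1

/-- **The rule (1,1)**, no unit pairs. -/
theorem one_one_of (h : Irr U T)
    (hmin : ∀ z, 4 ≤ (T z).ncard → ∀ s, s ⊆ T z → s ≠ T z →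
      ¬ ∀ᶠ w in 𝓝 z, ∃ i ∈ s, w ∈ U i ∨ (w ∈ XX U ∧ i ∈ Pal U w))
    (hu : ∀ z z', 4 ≤ (T z).ncard → 4 ≤ (T z').ncard → dist z z' ≠ 1)
    (h5 : (T z).ncard = 5) (hX : X.ncard = 3) (hXz : Xᶜ ⊆ T z) (hd : d ∈ Xᶜ)
    (hno : ∀ y, dist y z = 1 → T y ≠ Xᶜ \ {d}) {v v' q q' : ℂ}
    (hv : ∃ P, T z ∩ X ⊆ P ∧ v ∈ closure (H767.Ex T z P))
    (hv' : ∃ P, T z ∩ X ⊆ P ∧ v' ∈ closure (H767.Ex T z P))
    (hTv : T v = X) (hTv' : T v' = X) (hq : dist q z = 1) (hq' : dist q' z = 1)
    (hTq : T q = Xᶜ) (hTq' : T q' = Xᶜ) : v = v' ∧ q = q' := by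
  refine one_one_gen h hmin (fun c v x a d N _ _ _ _ y hy => ?_) h5 hX hXz hd hno hv hv' hTv hTv'
    hq hq' hTq hTq'
  by_contra h1
  exact hu y c (by omega) (N.four h) hy

/-- **The rule (1,1).** -/
theorem one_one (h : Irr U T)
    (hmin : ∀ z, 4 ≤ (T z).ncard → ∀ s, s ⊆ T z → s ≠ T z →
      ¬ ∀ᶠ w in 𝓝 z, ∃ i ∈ s, w ∈ U i ∨ (w ∈ XX U ∧ i ∈ Pal U w))
    (hu : ∀ z z', 4 ≤ (T z).ncard → 4 ≤ (T z').ncard → dist z z' ≠ 1)
    (h5 : (T z).ncard = 5) (hX : X.ncard = 3) (hXz : Xᶜ ⊆ T z) (hd : d ∈ Xᶜ)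
    (hno : ∀ y, dist y z = 1 → T y ≠ Xᶜ \ {d}) {v v' q q' : ℂ}
    (hv : v ∈ closure (H767.Ex T z (T z ∩ X))) (hv' : v' ∈ closure (H767.Ex T z (T z ∩ X)))
    (hTv : T v = X) (hTv' : T v' = X) (hq : dist q z = 1) (hq' : dist q' z = 1)
    (hTq : T q = Xᶜ) (hTq' : T q' = Xᶜ) : v = v' ∧ q = q' :=
  one_one_of h hmin hu h5 hX hXz hd hno ⟨_, Subset.rfl, hv⟩ ⟨_, Subset.rfl, hv'⟩ hTv hTv' hq hq'
    hTq hTq'

end Vale.Agent.P032.S5.H450
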